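import Vale.Agent.P025.R2.H507.CoreOdd

/-!
# P025, G-LA-b (helper507): the polynomial data `Core`
-/

open Polynomial

namespace P025H507

/-- the data of the explicit function: `Phi κ h = A ^ p + X ^ l * Q` with norm conditions on the
disc of radius `‖ρ‖`. -/
structure Core (K : Type*) [NormedField K] (p h l : ℕ) where
  κ : K
  ρ : K
  ζ : K
  A : K[X]
  Q : K[X]
  hζ : IsPrimitiveRoot ζ p
  hκ : ‖κ * h‖ = 1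
  hρ0 : ρ ≠ 0
  hρ1 : ‖ρ‖ < 1
  hPhi : Phi κ h = A ^ p + X ^ l * Q
  hA0 : A.coeff 0 = 1
  hA : ∀ i ≥ 1, ‖A.coeff i‖ * ‖ρ‖ ^ i < 1
  hQ0 : Q.coeff 0 ≠ 0
  hQ : ∀ i ≥ 1, ‖Q.coeff i‖ * ‖ρ‖ ^ i < ‖Q.coeff 0‖
  hbig : ‖ζ - 1‖ ^ p < ‖Q.coeff 0‖ * ‖ρ‖ ^ l
  hch : ∀ i ≥ 1, ‖κ * (h.choose i : K)‖ * ‖ρ‖ ^ i < 1

variable {K : Type*} [NormedField K] [IsUltrametricDist K]

theorem exists_core_odd [IsAlgClosed K] [CharZero K] {p : ℕ} (hpr : p.Prime) (hp2 : p ≠ 2)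
    (hp : ‖(p : K)‖ < 1) {h : ℕ} (hh : h ≠ 0) (hph : p ∣ h) : Nonempty (Core K p h 2) := by
  have hf : Fact p.Prime := ⟨hpr⟩
  obtain ⟨ζ, hζ⟩ : ∃ ζ : K, IsPrimitiveRoot ζ p := by
    have : NeZero (p : K) := ⟨by exact_mod_cast hpr.ne_zero⟩
    exact HasEnoughRootsOfUnity.exists_primitiveRoot K p
  obtain ⟨κ, ρ, A, Q, h1, h2, h3, h4, h5, h6, h7, h8, h9, h10⟩ := core_odd hp2 hp hh hph hζ
  exact ⟨⟨κ, ρ, ζ, A, Q, hζ, h1, h2, h3, h4, h5, h6, h7, h8, h9, h10⟩⟩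

end P025H507
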