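import Vale.Agent.P025.R2.H507.Base
import Vale.Agent.P025.R2.H507.CoreDef

/-!
# P025, G-LA-b (helper507): the data `Loc` on the unit disc, from `Core` by scaling
-/

set_option linter.unusedSectionVars false

open Polynomial P025H373

universe u

namespace P025H507

variable {C : Type u} [NontriviallyNormedField C] [IsUltrametricDist C]

/-- `φ = α ^ p + X ^ l u` on the unit disc, `φ`, `α` near `1`, `u` near the constant `c`. -/
structure Loc (C : Type u) [NontriviallyNormedField C] [IsUltrametricDist C] (p l : ℕ) where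
  ζ : C
  c : C
  φ : C[X]
  α : C[X]
  u : C[X]
  hζ : IsPrimitiveRoot ζ p
  hφ : φ = α ^ p + X ^ l * u
  hα : gp (α - 1) < 1
  hφ1 : gp (φ - 1) < 1
  hu : gp (u - Polynomial.C c) < ‖c‖
  hbig : ‖ζ - 1‖ ^ p < ‖c‖
  hlt : ‖c‖ < 1

end P025H507
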