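import Vale.Agent.P025.R2.H507.NotPow

/-!
# P025, G-LA-b (helper507): tensor form of `not_pow_F1`
-/

set_option linter.unusedSectionVars false

open Polynomial P025H373 TensorProduct

universe u v w x

namespace P025H507

variable {C : Type u} [NontriviallyNormedField C] [IsUltrametricDist C] [CompleteSpace C]
  [IsAlgClosed C]

/-- a residue field of `F ⊗ L`, generated by `T`. -/
lemma exists_quot {K : Type v} {F : Type w} {L : Type x} [Field K] [Field F] [Algebra K F]
    [Field L] [Algebra K L] {T : L} (htop : Algebra.adjoin K {T} = ⊤) {l : ℕ} {H : L}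
    {G : F ⊗[K] L} (hG : G ^ l = 1 ⊗ₜ H) :
    ∃ (E : Type (max w x)) (_ : Field E) (_ : Algebra F E) (j : L →+* E) (z : E),
      IntermediateField.adjoin F {j T} = ⊤ ∧ z ^ l = j H ∧
      ∀ r : K, j (algebraMap K L r) = algebraMap F E (algebraMap K F r) := by
  obtain ⟨N, hN⟩ := Ideal.exists_maximal (F ⊗[K] L)
  let fE : Field ((F ⊗[K] L) ⧸ N) := Ideal.Quotient.field N
  let π : (F ⊗[K] L) →ₐ[F] ((F ⊗[K] L) ⧸ N) := Ideal.Quotient.mkₐ F N
  let j : L →+* ((F ⊗[K] L) ⧸ N) :=
    (π : (F ⊗[K] L) →+* ((F ⊗[K] L) ⧸ N)).comp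
      (Algebra.TensorProduct.includeRight : L →ₐ[K] F ⊗[K] L).toRingHom
  have hj : ∀ z, j z = π (1 ⊗ₜ z) := fun z => rfl
  have hπ : Function.Surjective π := Ideal.Quotient.mkₐ_surjective _ _
  have hr : ∀ r : K, j (algebraMap K L r) = algebraMap F _ (algebraMap K F r) := by
    intro r
    have h3 : (1 : F) ⊗ₜ[K] (algebraMap K L r) = algebraMap F (F ⊗[K] L) (algebraMap K F r) := by
      rw [Algebra.TensorProduct.algebraMap_apply, Algebra.algebraMap_eq_smul_one (A := L),
        ← TensorProduct.smul_tmul, Algebra.smul_def, mul_one]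
      rfl
    rw [hj, h3, AlgHom.commutes]
  refine ⟨_, fE, inferInstance, j, π G, ?_, by rw [← map_pow, hG, hj], hr⟩
  rw [eq_top_iff]
  intro z _
  obtain ⟨w, rfl⟩ := hπ z
  induction w using TensorProduct.induction_on with
  | zero => rw [map_zero]; exact zero_mem _
  | add x y hx hy => rw [map_add]; exact add_mem (hx trivial) (hy trivial)
  | tmul a z =>
    have h1 : a ⊗ₜ[K] z = a • ((1 : F) ⊗ₜ[K] z) := by
      rw [TensorProduct.smul_tmul', smul_eq_mul, mul_one]
    rw [h1, map_smul]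
    apply IntermediateField.smul_mem
    rw [← hj]
    have h2 : z ∈ Algebra.adjoin K {T} := by rw [htop]; trivial
    clear h1
    rename_i hdummy
    clear hdummy
    induction h2 using Algebra.adjoin_induction with
    | mem x hx =>
      rw [Set.mem_singleton_iff.1 hx]
      exact IntermediateField.mem_adjoin_simple_self _ _
    | algebraMap r =>
      rw [hr]
      exact IntermediateField.algebraMap_mem _ _
    | add x y hx hy h3 h4 => rw [map_add]; exact add_mem h3 h4
    | mul x y hx hy h3 h4 => rw [map_mul]; exact mul_mem h3 h4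

lemma Loc.T_ne {p l : ℕ} (D : Loc C p l) {L : Type*} [Field L]
    [Algebra (RatFunc C) L] {T : L} (hT : T ^ p = pp (algebraMap (RatFunc C) L) D.φ) (k : ℕ) :
    T - cc (algebraMap (RatFunc C) L) D.ζ ^ k * pp (algebraMap (RatFunc C) L) D.α ≠ 0 := by
  intro h0
  set i := algebraMap (RatFunc C) L
  have h1 : T = cc i D.ζ ^ k * pp i D.α := by linear_combination h0
  have hprim : IsPrimitiveRoot (cc i D.ζ) p :=
    D.hζ.map_of_injective (f := i.comp RatFunc.C) (i.comp RatFunc.C).injective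
  rw [h1, mul_pow, ← pow_mul, mul_comm k p, pow_mul, hprim.pow_eq_one, one_pow,
    one_mul, D.hφ, pp_add, pp_pow] at hT
  have h2 : pp i (X ^ l * D.u) = 0 := by linear_combination -hT
  rw [pp, map_eq_zero, ← map_zero (algebraMap C[X] (RatFunc C)),
    (IsFractionRing.injective C[X] (RatFunc C)).eq_iff, mul_eq_zero] at h2
  have hc0 : D.c ≠ 0 := by
    rw [← norm_pos_iff]
    exact (pow_nonneg (norm_nonneg _) _).trans_lt D.hbig
  rcases h2 with h2 | h2
  · exact pow_ne_zero _ X_ne_zero h2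
  · have h3 := gp_u (hiF0 (C := C)) D
    rw [h2, gp_zero] at h3
    exact hc0 (norm_eq_zero.1 h3.symm)

theorem not_pow_tensor [CharZero C] {p l : ℕ} (hp : p.Prime) (hpC : ‖(p : C)‖ < 1) (hl : l.Prime)
    (hlp : l ≠ p) (D : Loc C p l) {L : Type*} [Field L] [Algebra (RatFunc C) L] {T : L}
    (hT : T ^ p = pp (algebraMap (RatFunc C) L) D.φ)
    (hL : IntermediateField.adjoin (RatFunc C) {T} = ⊤) (G : F1 C ⊗[RatFunc C] L) :
    G ^ l ≠ 1 ⊗ₜ ((T - pp (algebraMap (RatFunc C) L) D.α) /
      (T - cc (algebraMap (RatFunc C) L) D.ζ * pp (algebraMap (RatFunc C) L) D.α)) := by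
  intro hG
  set i := algebraMap (RatFunc C) L with hi
  have hint : IsIntegral (RatFunc C) T := by
    refine ⟨X ^ p - Polynomial.C (algebraMap C[X] (RatFunc C) D.φ),
      monic_X_pow_sub_C _ hp.ne_zero, ?_⟩
    rw [eval₂_sub, eval₂_X_pow, eval₂_C, hT]
    exact sub_self _
  have htop : Algebra.adjoin (RatFunc C) {T} = ⊤ := by
    have h1 := IntermediateField.adjoin_simple_toSubalgebra_of_isAlgebraic (F := RatFunc C)
      hint.isAlgebraic
    rw [← h1, hL]; rfl
  obtain ⟨E, fE, aE, j, z, hE, hz, hcomp⟩ := exists_quot htop hG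
  have hpp : ∀ P : C[X], j (pp i P) = pp (i1 E) P := fun P => hcomp _
  have hcc : ∀ c : C, j (cc i c) = cc (i1 E) c := fun c => hcomp _
  have hT' : (j T) ^ p = pp (i1 E) D.φ := by
    rw [← map_pow, hT, hpp]
  refine not_pow_F1 hp hpC hl hlp D hT' hE z ?_
  have h2 : T - cc i D.ζ * pp i D.α ≠ 0 := by
    have := D.T_ne hT 1
    rwa [pow_one] at this
  have h3 : j T - cc (i1 E) D.ζ * pp (i1 E) D.α = j (T - cc i D.ζ * pp i D.α) := by
    rw [map_sub j, map_mul j, hcc, hpp]
  have h4 : j T - pp (i1 E) D.α = j (T - pp i D.α) := by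
    rw [map_sub j, hpp]
  rw [hz, h3, h4, ← map_mul j, div_mul_cancel₀ _ h2]

end P025H507
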