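import Vale.Agent.P025.R2.H507.E0

/-!
# P025, G-LA-b (helper507): `A1` is integrally closed in `F1`; a valuation ring over `t = 0`
-/

set_option linter.unusedSectionVars false

open Polynomial P025H373

universe u

namespace P025H507

variable {C : Type u} [NontriviallyNormedField C] [IsUltrametricDist C] [CompleteSpace C]
  [IsAlgClosed C]

lemma tt_sub_ne (a : C) : tt C - algebraMap C (F0 C) a ≠ 0 := by
  have e : tt C - algebraMap C (F0 C) a = aeval (tt C) (X - Polynomial.C a) := by
    rw [map_sub, aeval_X, aeval_C]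
  rw [e]
  exact fun h => X_sub_C_ne_zero a (aeval_inj.mp h)

/-- Taylor division at a point of the disc -/
lemma exists_div_root {a : F0 C} (ha : a ∈ A1 C) (z : C) :
    ∃ a' ∈ A1 C, ∃ c : C, a = (tt C - algebraMap C (F0 C) z) * a' + algebraMap C (F0 C) c := by
  have hne := tt_sub_ne z
  obtain ⟨a1, h1, b, hb, htb, hab, -, -⟩ := exists_split (a / (tt C - algebraMap C (F0 C) z))
  have h2 : (tt C - algebraMap C (F0 C) z) * b = a - (tt C - algebraMap C (F0 C) z) * a1 := by
    have h3 : b = a / (tt C - algebraMap C (F0 C) z) - a1 := by rw [← hab]; ring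
    rw [h3, mul_sub, mul_div_cancel₀ _ hne]
  have h4 : (tt C - algebraMap C (F0 C) z) * b ∈ A2 C := by
    rw [sub_mul]
    exact (A2 C).sub_mem htb ((A2 C).mul_mem ((A2 C).algebraMap_mem z) hb)
  have h5 : (tt C - algebraMap C (F0 C) z) * b ∈ A1 C := by
    rw [h2]
    exact (A1 C).sub_mem ha ((A1 C).mul_mem ((A1 C).sub_mem tt_mem_A1 ((A1 C).algebraMap_mem z)) h1)
  obtain ⟨c, hc⟩ := exists_const_of_mem h5 h4
  exact ⟨a1, h1, c, by rw [← hc, h2]; ring⟩

lemma wind_tt_sub {z : C} (hz : ‖z‖ ≤ 1) : wind C (tt C - algebraMap C (F0 C) z) = 1 := by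
  classical
  have e : tt C - algebraMap C (F0 C) z = aeval (tt C) (X - Polynomial.C z) := by
    rw [map_sub, aeval_X, aeval_C]
  rw [e, wind_poly (X_sub_C_ne_zero z), roots_X_sub_C, Multiset.filter_singleton, if_pos hz]
  simp

/-- `1 / (t - z)` is not integral over `A1`. -/
lemma not_int_inv {z : C} (hz : ‖z‖ ≤ 1) {c : C} (hc : c ≠ 0) :
    ¬ IsIntegral (A1 C) (algebraMap C (F0 C) c / (tt C - algebraMap C (F0 C) z)) := by
  intro hint
  have hne := tt_sub_ne z
  set u : F0 C := tt C - algebraMap C (F0 C) z with hu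
  have huA : u ∈ A1 C := (A1 C).sub_mem tt_mem_A1 ((A1 C).algebraMap_mem z)
  have hint2 : IsIntegral (A1 C) (u⁻¹) := by
    have h1 : u⁻¹ = algebraMap (A1 C) (F0 C) ⟨algebraMap C (F0 C) c⁻¹, (A1 C).algebraMap_mem _⟩ *
        (algebraMap C (F0 C) c / u) := by
      change u⁻¹ = algebraMap C (F0 C) c⁻¹ * (algebraMap C (F0 C) c / u)
      rw [map_inv₀]
      have : algebraMap C (F0 C) c ≠ 0 := by simpa using hc
      field_simp
    rw [h1]
    exact isIntegral_algebraMap.mul hint
  have h2 : u⁻¹ ∈ A1 C := by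
    obtain ⟨P, hP, h3⟩ := hint2
    set n := P.natDegree with hn
    have h4 : u⁻¹ ^ n = -∑ k ∈ Finset.range n, (P.coeff k : F0 C) * u⁻¹ ^ k := by
      rw [Polynomial.eval₂_eq_sum_range, Finset.sum_range_succ, hP.coeff_natDegree, map_one,
        one_mul] at h3
      rw [eq_neg_iff_add_eq_zero, add_comm]
      exact h3
    rcases Nat.eq_zero_or_pos n with h0 | hpos
    · rw [h0] at h4
      simp at h4
    · have h5 : u⁻¹ = -∑ k ∈ Finset.range n, (P.coeff k : F0 C) * u ^ (n - 1 - k) := by
        have h6 : u⁻¹ = u⁻¹ ^ n * u ^ (n - 1) := by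
          have : n = (n - 1) + 1 := by omega
          rw [this, pow_succ, Nat.add_sub_cancel, inv_pow]
          field_simp
        conv_lhs => rw [h6, h4, neg_mul, Finset.sum_mul]
        congr 1
        refine Finset.sum_congr rfl fun k hk => ?_
        rw [Finset.mem_range] at hk
        rw [mul_assoc]
        congr 1
        have : n - 1 = k + (n - 1 - k) := by omega
        conv_lhs => rw [this, pow_add, ← mul_assoc, inv_pow, inv_mul_cancel₀ (pow_ne_zero _ hne),
          one_mul]
      rw [h5]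
      exact (A1 C).neg_mem ((A1 C).sum_mem fun k _ =>
        (A1 C).mul_mem (P.coeff k).2 ((A1 C).pow_mem huA _))
  have h7 := wind_nonneg h2
  rw [wind_inv, wind_tt_sub hz] at h7
  omega

/-- `A1` is integrally closed in `F1`. -/
theorem mem_A1_of_integral {x : F0 C} (hx : x ∈ F1 C) (hint : IsIntegral (A1 C) x) : x ∈ A1 C := by
  obtain ⟨a, ha, P, hP, hroots, rfl⟩ := mem_F1_iff_div.1 hx
  clear hx
  induction hn : P.natDegree generalizing P a with
  | zero =>
    rw [hP.natDegree_eq_zero.1 hn, map_one, div_one]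
    exact ha
  | succ n ih =>
    have hdeg : P.degree ≠ 0 := by
      rw [Polynomial.degree_eq_natDegree hP.ne_zero, hn]
      exact_mod_cast Nat.succ_ne_zero n
    obtain ⟨z, hz⟩ := IsAlgClosed.exists_root P hdeg
    obtain ⟨Q, hQ⟩ := dvd_iff_isRoot.2 hz
    have hzroot : z ∈ P.roots := (mem_roots hP.ne_zero).2 hz
    have hz1 := hroots z hzroot
    have hQm : Q.Monic := by
      have h1 : (X - Polynomial.C z).Monic := monic_X_sub_C z
      exact h1.of_mul_monic_left (by rw [← hQ]; exact hP)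
    have hQd : Q.natDegree = n := by
      have h1 := (monic_X_sub_C z).natDegree_mul hQm
      rw [← hQ, hn, natDegree_X_sub_C] at h1
      omega
    have hQr : ∀ b ∈ Q.roots, ‖b‖ ≤ 1 := by
      intro b hb
      apply hroots
      rw [mem_roots hP.ne_zero, hQ, IsRoot.def, eval_mul, (isRoot_of_mem_roots hb).eq_zero,
        mul_zero]
    have hne := tt_sub_ne z
    have hQ0 : aeval (tt C) Q ≠ 0 := fun h => hQm.ne_zero (aeval_inj.mp h)
    have hPe : aeval (tt C) P = (tt C - algebraMap C (F0 C) z) * aeval (tt C) Q := by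
      rw [hQ, map_mul, map_sub, aeval_X, aeval_C]
    obtain ⟨a', ha', c, hc⟩ := exists_div_root ha z
    have hc0 : c = 0 := by
      by_contra hc0
      apply not_int_inv hz1 hc0
      have h1 : algebraMap C (F0 C) c / (tt C - algebraMap C (F0 C) z) =
          algebraMap (A1 C) (F0 C) ⟨aeval (tt C) Q, aeval_mem_A1 Q⟩ * (a / aeval (tt C) P) -
          algebraMap (A1 C) (F0 C) ⟨a', ha'⟩ := by
        change _ = aeval (tt C) Q * (a / aeval (tt C) P) - a'
        rw [hPe, hc]
        field_simp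
        ring
      rw [h1]
      exact (isIntegral_algebraMap.mul hint).sub isIntegral_algebraMap
    have h2 : a / aeval (tt C) P = a' / aeval (tt C) Q := by
      rw [hPe, hc, hc0, map_zero, add_zero, mul_div_mul_left _ _ hne]
    rw [h2] at hint ⊢
    exact ih a' ha' Q hQm hQr hint hQd

/-- a valuation ring of `E0` over `A1` centred at `t = 0`. -/
theorem exists_vs : ∃ B : ValuationSubring (E0 C), (∀ a ∈ A1 C, algebraMap (F0 C) (E0 C) a ∈ B) ∧
    algebraMap (F0 C) (E0 C) (tt C) ∈ B.nonunits := by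
  let S : Subring (E0 C) := (A1 C).toSubring.map (algebraMap (F0 C) (E0 C))
  have htS : algebraMap (F0 C) (E0 C) (tt C) ∈ S := ⟨tt C, tt_mem_A1, rfl⟩
  let I : Ideal S := Ideal.span {⟨_, htS⟩}
  have hI : I ≠ ⊤ := by
    intro h
    rw [Ideal.span_singleton_eq_top, isUnit_iff_exists_inv] at h
    obtain ⟨⟨_, ⟨a, ha, rfl⟩⟩, hb⟩ := h
    have h1 : algebraMap (F0 C) (E0 C) (tt C) * algebraMap (F0 C) (E0 C) a = 1 :=
      congrArg Subtype.val hb
    rw [← map_mul, ← map_one (algebraMap (F0 C) (E0 C))] at h1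
    have h2 := (algebraMap (F0 C) (E0 C)).injective h1
    have h3 : a ∈ A1 C := ha
    have h4 : a = (tt C)⁻¹ := eq_inv_of_mul_eq_one_right h2
    rw [h4] at h3
    have h5 := wind_nonneg h3
    rw [wind_inv, wind_tt] at h5
    omega
  obtain ⟨B, hB1, hB2⟩ := Ideal.image_subset_nonunits_valuationSubring I hI
  refine ⟨B, fun a ha => hB1 ⟨a, ha, rfl⟩, hB2 ⟨⟨_, htS⟩, Ideal.mem_span_singleton_self _, rfl⟩⟩

end P025H507
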