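import Vale.Agent.P025.R2.H373.Gauss

/-!
# P025, G-LA-b (helper507): integrality over the rational functions of norm `≤ 1` in `A1`, `A2`

`OO A` = rational functions in `A` with Gauss norm `≤ 1`; `IntOver A i z` : `z` is integral over
`OO A` (through `i : C(t) → L`).
-/

set_option linter.unusedSectionVars false

open Polynomial P025H373

universe u

namespace P025H507

variable {C : Type u} [NontriviallyNormedField C] [IsUltrametricDist C] [CompleteSpace C]
  [IsAlgClosed C]

/-- rational functions in `A` of norm `≤ 1`. -/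
noncomputable def OO (A : Subalgebra C (F0 C)) : Subring (RatFunc C) where
  carrier := {f | algebraMap (RatFunc C) (F0 C) f ∈ A ∧ ‖algebraMap (RatFunc C) (F0 C) f‖ ≤ 1}
  mul_mem' := by
    rintro a b ⟨ha, ha'⟩ ⟨hb, hb'⟩
    refine ⟨by rw [map_mul]; exact A.mul_mem ha hb, ?_⟩
    rw [map_mul, norm_mul]
    exact mul_le_one₀ ha' (norm_nonneg _) hb'
  one_mem' := ⟨by rw [map_one]; exact A.one_mem, by rw [map_one, norm_one]⟩
  add_mem' := by
    rintro a b ⟨ha, ha'⟩ ⟨hb, hb'⟩
    refine ⟨by rw [map_add]; exact A.add_mem ha hb, ?_⟩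
    rw [map_add]
    exact (IsUltrametricDist.norm_add_le_max _ _).trans (max_le ha' hb')
  zero_mem' := ⟨by rw [map_zero]; exact A.zero_mem, by rw [map_zero, norm_zero]; exact zero_le_one⟩
  neg_mem' := by
    rintro a ⟨ha, ha'⟩
    exact ⟨by rw [map_neg]; exact A.neg_mem ha, by rwa [map_neg, norm_neg]⟩

/-- `z` is integral over `OO A`. -/
def IntOver (A : Subalgebra C (F0 C)) {L : Type*} [CommRing L] (i : RatFunc C →+* L) (z : L) :
    Prop := (i.comp (OO A).subtype).IsIntegralElem z

/-- constants -/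
noncomputable def cc {L : Type*} [CommRing L] (i : RatFunc C →+* L) (c : C) : L := i (RatFunc.C c)

/-- polynomials -/
noncomputable def pp {L : Type*} [CommRing L] (i : RatFunc C →+* L) (P : C[X]) : L :=
  i (algebraMap C[X] (RatFunc C) P)

section

variable {A : Subalgebra C (F0 C)} {L : Type*} [CommRing L] {i : RatFunc C →+* L}

lemma mem_OO {f : RatFunc C} : f ∈ OO A ↔ algebraMap (RatFunc C) (F0 C) f ∈ A ∧
    ‖algebraMap (RatFunc C) (F0 C) f‖ ≤ 1 := Iff.rfl

lemma IntOver.of_mem {f : RatFunc C} (hf : f ∈ OO A) : IntOver A i (i f) :=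
  RingHom.isIntegralElem_map (i.comp (OO A).subtype) (x := ⟨f, hf⟩)

lemma const_mem {c : C} (hc : ‖c‖ ≤ 1) : RatFunc.C c ∈ OO A := by
  refine ⟨A.algebraMap_mem c, ?_⟩
  rw [← algebraMap_C_eq, norm_algebraMap_C]
  exact hc

lemma IntOver.const {c : C} (hc : ‖c‖ ≤ 1) : IntOver A i (i (RatFunc.C c)) :=
  IntOver.of_mem (const_mem hc)

lemma IntOver.cst {c : C} (hc : ‖c‖ ≤ 1) : IntOver A i (cc i c) := IntOver.const hc

lemma IntOver.one : IntOver A i 1 := RingHom.isIntegralElem_one _

lemma IntOver.zero : IntOver A i 0 := RingHom.isIntegralElem_zero _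

lemma IntOver.add {x y : L} (hx : IntOver A i x) (hy : IntOver A i y) : IntOver A i (x + y) :=
  RingHom.IsIntegralElem.add _ hx hy

lemma IntOver.neg {x : L} (hx : IntOver A i x) : IntOver A i (-x) :=
  RingHom.IsIntegralElem.neg _ hx

lemma IntOver.sub {x y : L} (hx : IntOver A i x) (hy : IntOver A i y) : IntOver A i (x - y) :=
  RingHom.IsIntegralElem.sub _ hx hy

lemma IntOver.mul {x y : L} (hx : IntOver A i x) (hy : IntOver A i y) : IntOver A i (x * y) :=
  RingHom.IsIntegralElem.mul _ hx hy

lemma IntOver.pow {x : L} (hx : IntOver A i x) (n : ℕ) : IntOver A i (x ^ n) := by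
  induction n with
  | zero => rw [pow_zero]; exact IntOver.one
  | succ n ih => rw [pow_succ]; exact ih.mul hx

lemma IntOver.sum {ι : Type*} (s : Finset ι) {f : ι → L} (h : ∀ k ∈ s, IntOver A i (f k)) :
    IntOver A i (∑ k ∈ s, f k) := by
  classical
  induction s using Finset.induction_on with
  | empty => rw [Finset.sum_empty]; exact IntOver.zero
  | insert a s ha ih =>
    rw [Finset.sum_insert ha]
    exact (h a (Finset.mem_insert_self _ _)).add
      (ih fun k hk => h k (Finset.mem_insert_of_mem hk))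

lemma IntOver.prod {ι : Type*} (s : Finset ι) {f : ι → L} (h : ∀ k ∈ s, IntOver A i (f k)) :
    IntOver A i (∏ k ∈ s, f k) := by
  classical
  induction s using Finset.induction_on with
  | empty => rw [Finset.prod_empty]; exact IntOver.one
  | insert a s ha ih =>
    rw [Finset.prod_insert ha]
    exact (h a (Finset.mem_insert_self _ _)).mul
      (ih fun k hk => h k (Finset.mem_insert_of_mem hk))

/-- functoriality -/
lemma IntOver.map {L' : Type*} [CommRing L'] (f : L →+* L') {x : L} (hx : IntOver A i x) :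
    IntOver A (f.comp i) (f x) := by
  obtain ⟨P, hP, h⟩ := hx
  refine ⟨P, hP, ?_⟩
  have h2 := congrArg f h
  rw [map_zero, Polynomial.hom_eval₂] at h2
  exact h2

/-- a root of `X ^ n = y`, `y` integral, is integral. -/
lemma IntOver.of_pow {x : L} {n : ℕ} (hn : n ≠ 0) (hx : IntOver A i (x ^ n)) : IntOver A i x := by
  obtain ⟨P, hP, h⟩ := hx
  refine ⟨P.comp (X ^ n), ?_, ?_⟩
  · exact hP.comp (monic_X_pow n) (by rw [natDegree_X_pow]; exact hn)
  · rw [← h, Polynomial.eval₂_comp]
    simp

end

end P025H507
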