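import Vale.Agent.P025.R2.H507.Phi

/-! # P025, G-LA-b: the case `p` odd -/

open Polynomial

namespace P025H507

variable {K : Type*} [NormedField K] [IsUltrametricDist K]

/-- the number `(h+1)(h-1)(h-2)...(h-p+2)` -/
def NN (p h : ℕ) : ℕ := (h + 1) * (h - 1).descFactorial (p - 2)

lemma choose_eq_NN {p h : ℕ} (hp : 2 ≤ p) (hh : h ≠ 0) :
    p.factorial * (h + 1).choose p = h * NN p h := by
  rw [← Nat.descFactorial_eq_factorial_mul_choose, NN]
  obtain ⟨a, rfl⟩ := Nat.exists_eq_succ_of_ne_zero hh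
  obtain ⟨j, rfl⟩ : ∃ j, p = j + 2 := ⟨p - 2, by omega⟩
  simp only [Nat.succ_eq_add_one]
  rw [show a + 1 - 1 = a by omega, show j + 2 - 2 = j by omega, Nat.succ_descFactorial_succ,
    Nat.succ_descFactorial_succ]
  ring

lemma coprime_NN {p h : ℕ} [hpr : Fact p.Prime] (hh : h ≠ 0) (hph : p ∣ h) :
    Nat.Coprime (NN p h) p := by
  have hpp : p.Prime := hpr.out
  have hle : p ≤ h := Nat.le_of_dvd (Nat.pos_of_ne_zero hh) hph
  have h2 := hpp.two_le
  rw [NN]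
  apply Nat.Coprime.mul_left
  · rw [Nat.coprime_comm, Nat.Prime.coprime_iff_not_dvd hpp]
    intro h
    have : p ∣ 1 := (Nat.dvd_add_right hph).1 h
    exact hpp.one_lt.ne' (Nat.dvd_one.1 this)
  · rw [Nat.descFactorial_eq_prod_range]
    apply Nat.Coprime.prod_left
    intro i hi
    rw [Finset.mem_range] at hi
    rw [Nat.coprime_comm, Nat.Prime.coprime_iff_not_dvd hpp]
    intro h3
    have h4 : p ∣ h - (h - 1 - i) := Nat.dvd_sub hph h3
    rw [show h - (h - 1 - i) = i + 1 by omega] at h4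
    have := Nat.le_of_dvd (by omega) h4
    omega

lemma norm_factorial_eq {p : ℕ} [hpr : Fact p.Prime] (hp : ‖(p : K)‖ < 1) :
    ‖(p.factorial : K)‖ = ‖(p : K)‖ := by
  have hpp : p.Prime := hpr.out
  have h1 : p.factorial = p * (p - 1).factorial := (Nat.mul_factorial_pred hpp.ne_zero).symm
  rw [h1, Nat.cast_mul, norm_mul, norm_nat_eq_one hp (n := (p - 1).factorial), mul_one]
  rw [Nat.coprime_comm, Nat.Prime.coprime_iff_not_dvd hpp, hpp.dvd_factorial]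
  have := hpp.one_lt
  omega

lemma norm_sub_le_max (a b : K) : ‖a - b‖ ≤ max ‖a‖ ‖b‖ := by
  have := IsUltrametricDist.norm_add_le_max a (-b)
  rwa [norm_neg, ← sub_eq_add_neg] at this

lemma norm_sub_one_eq {a : K} (ha : ‖a‖ < 1) : ‖a - 1‖ = 1 := by
  have h1 : ‖a‖ ≠ ‖(-1 : K)‖ := by rw [norm_neg, norm_one]; exact ha.ne
  rw [sub_eq_add_neg, IsUltrametricDist.norm_add_eq_max_of_norm_ne_norm h1, norm_neg, norm_one]
  exact max_eq_right ha.le

theorem exists_alpha [IsAlgClosed K] [CharZero K] {p : ℕ} [hpr : Fact p.Prime]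
    (hp : ‖(p : K)‖ < 1) {N : K} (hN : ‖N‖ = 1) :
    ∃ α : K, (p.factorial : K) * α ^ p = (p * α - 1) * N ∧ ‖(p : K) * α‖ < 1 ∧
      ‖(p : K)‖ * ‖α‖ ^ p = 1 := by
  have hpp : p.Prime := hpr.out
  have hp0 : (p : K) ≠ 0 := Nat.cast_ne_zero.2 hpp.ne_zero
  have hP0 : 0 < ‖(p : K)‖ := norm_pos_iff.2 hp0
  have hf0 : (p.factorial : K) ≠ 0 := Nat.cast_ne_zero.2 (Nat.factorial_ne_zero p)
  let f : K[X] := C (p.factorial : K) * X ^ p - C ((p : K) * N) * X + C N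
  have hc : f.coeff p ≠ 0 := by
    have h1 := hpp.one_lt
    simp only [f, coeff_add, coeff_sub, coeff_C_mul, coeff_X_pow, coeff_X, coeff_C]
    rw [if_neg (show ¬ (1 = p) by omega), if_neg (show ¬ (p = 0) by omega)]
    simpa using hf0
  have hdeg : f.degree ≠ 0 := by
    intro h
    have h1 := le_degree_of_ne_zero hc
    rw [h] at h1
    have h2 : (p : WithBot ℕ) ≤ ((0 : ℕ) : WithBot ℕ) := h1
    exact absurd (Nat.le_zero.1 (Nat.cast_le.1 h2)) hpp.ne_zero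
  obtain ⟨α, hα⟩ := IsAlgClosed.exists_root f hdeg
  have h1 : (p.factorial : K) * α ^ p = (p * α - 1) * N := by
    have h2 : eval α f = 0 := hα
    simp only [f, eval_add, eval_sub, eval_mul, eval_C, eval_pow, eval_X] at h2
    linear_combination h2
  have h2 : ‖(p : K)‖ * ‖α‖ ^ p = ‖(p : K) * α - 1‖ := by
    have := congrArg norm h1
    rw [norm_mul, norm_mul, norm_pow, norm_factorial_eq hp, hN, mul_one] at this
    exact this
  have h3 : ‖(p : K) * α‖ < 1 := by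
    by_contra hge
    push Not at hge
    have h4 : ‖(p : K) * α - 1‖ ≤ ‖(p : K) * α‖ := by
      have h5 := norm_sub_le_max ((p : K) * α) 1
      rw [norm_one, max_eq_left hge] at h5
      exact h5
    rw [← h2, norm_mul] at h4
    have h6 : ‖α‖ ^ p ≤ ‖α‖ := le_of_mul_le_mul_left h4 hP0
    have h7 : 1 < ‖α‖ := by
      rw [norm_mul] at hge
      by_contra hle
      push Not at hle
      have : ‖(p : K)‖ * ‖α‖ < 1 :=
        lt_of_le_of_lt (mul_le_of_le_one_right (norm_nonneg _) hle) hp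
      linarith
    have h8 : ‖α‖ ^ 1 < ‖α‖ ^ p := pow_lt_pow_right₀ h7 hpp.one_lt
    rw [pow_one] at h8
    linarith
  exact ⟨α, h1, h3, by rw [h2, norm_sub_one_eq h3]⟩

theorem core_odd [IsAlgClosed K] [CharZero K] {p : ℕ} [hpr : Fact p.Prime] (hp2 : p ≠ 2)
    (hp : ‖(p : K)‖ < 1) {h : ℕ} (hh : h ≠ 0) (hph : p ∣ h) {ζ : K} (hζ : IsPrimitiveRoot ζ p) :
    ∃ κ ρ : K, ∃ A Q : K[X], ‖κ * h‖ = 1 ∧ ρ ≠ 0 ∧ ‖ρ‖ < 1 ∧
      Phi κ h = A ^ p + X ^ 2 * Q ∧ A.coeff 0 = 1 ∧ (∀ i ≥ 1, ‖A.coeff i‖ * ‖ρ‖ ^ i < 1) ∧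
      Q.coeff 0 ≠ 0 ∧ (∀ i ≥ 1, ‖Q.coeff i‖ * ‖ρ‖ ^ i < ‖Q.coeff 0‖) ∧
      ‖ζ - 1‖ ^ p < ‖Q.coeff 0‖ * ‖ρ‖ ^ 2 ∧
      (∀ i ≥ 1, ‖κ * (h.choose i : K)‖ * ‖ρ‖ ^ i < 1) := by
  have hpp : p.Prime := hpr.out
  have h3p : 3 ≤ p := by have := hpp.two_le; omega
  have hp0 : (p : K) ≠ 0 := Nat.cast_ne_zero.2 hpp.ne_zero
  have hP0 : 0 < ‖(p : K)‖ := norm_pos_iff.2 hp0
  have hh0 : (h : K) ≠ 0 := Nat.cast_ne_zero.2 hh
  have hN1 : ‖(NN p h : K)‖ = 1 := norm_nat_eq_one hp (coprime_NN hh hph)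
  obtain ⟨α, hα, hα1, hα2⟩ := exists_alpha (K := K) hp hN1
  -- radius
  obtain ⟨ρ, hρ⟩ := IsAlgClosed.exists_pow_nat_eq ((p : K) ^ (p + 2)) (n := 4 * (p - 1))
    (by omega)
  have hρn : ‖ρ‖ ^ (4 * (p - 1)) = ‖(p : K)‖ ^ (p + 2) := by
    rw [← norm_pow, hρ, norm_pow]
  have hρ0 : ρ ≠ 0 := by
    rintro rfl
    rw [zero_pow (by omega)] at hρ
    exact pow_ne_zero _ hp0 hρ.symm
  have hr0 : 0 < ‖ρ‖ := norm_pos_iff.2 hρ0
  have hr1 : ‖ρ‖ < 1 := by
    by_contra hge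
    push Not at hge
    have h1 : 1 ≤ ‖ρ‖ ^ (4 * (p - 1)) := one_le_pow₀ hge
    rw [hρn] at h1
    have h2 : ‖(p : K)‖ ^ (p + 2) < 1 := pow_lt_one₀ hP0.le hp (by omega)
    linarith
  have hrp : ‖ρ‖ ^ (p - 1) < ‖(p : K)‖ := by
    apply lt_of_pow_lt_pow_left₀ 4 hP0.le
    rw [← pow_mul, mul_comm (p - 1) 4, hρn]
    exact pow_lt_pow_right_of_lt_one₀ hP0 hp (by omega)
  have hr2 : ‖(p : K)‖ ^ p < (‖ρ‖ ^ 2) ^ (p - 1) := by
    apply lt_of_pow_lt_pow_left₀ 2 (by positivity)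
    rw [← pow_mul, ← pow_mul, ← pow_mul, show 2 * ((p - 1) * 2) = 4 * (p - 1) by ring, hρn]
    exact pow_lt_pow_right_of_lt_one₀ hP0 hp (by omega)
  -- the data
  set μ : K := p * α - 1 with hμ
  have hμ1 : ‖μ‖ = 1 := norm_sub_one_eq hα1
  set κ : K := μ / h with hκ
  have hκh : κ * h = μ := div_mul_cancel₀ _ hh0
  set A : K[X] := 1 + C α * X with hA
  have hAc : ∀ i, (A ^ p).coeff i = (p.choose i : K) * α ^ i := fun i => one_add_pow_coeff α p i
  set D : K[X] := Phi κ h - A ^ p with hD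
  have hDc : ∀ i, D.coeff i = (Phi κ h).coeff i - (p.choose i : K) * α ^ i := by
    intro i
    rw [hD, coeff_sub, hAc]
  have hD0 : D.coeff 0 = 0 := by
    rw [hDc, Phi_coeff_zero]; simp
  have hD1 : D.coeff 1 = 0 := by
    rw [hDc, Phi_coeff_one, hκh, hμ]; simp
  have hDp : D.coeff p = 0 := by
    rw [hDc, Phi_coeff κ h hpp.two_le, Nat.choose_self, Nat.cast_one, one_mul, sub_eq_zero]
    have h1 : (p.factorial : K) ≠ 0 := Nat.cast_ne_zero.2 (Nat.factorial_ne_zero p)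
    apply mul_left_cancel₀ h1
    rw [hα]
    have h2 : (p.factorial : K) * ((h + 1).choose p : K) = (h : K) * (NN p h : K) := by
      exact_mod_cast congrArg (fun n : ℕ => (n : K)) (choose_eq_NN hpp.two_le hh)
    calc (p.factorial : K) * (κ * ((h + 1).choose p : K))
        = κ * ((p.factorial : K) * ((h + 1).choose p : K)) := by ring
      _ = (κ * h) * (NN p h : K) := by rw [h2]; ring
      _ = _ := by rw [hκh]
  obtain ⟨Q, hQ⟩ : X ^ 2 ∣ D := by
    rw [X_pow_dvd_iff]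
    intro d hd
    interval_cases d
    · exact hD0
    · exact hD1
  have hQc : ∀ i, Q.coeff i = D.coeff (i + 2) := by
    intro i
    rw [hQ, coeff_X_pow_mul]
  have hPhi : ∀ {i : ℕ}, 2 ≤ i → ‖(Phi κ h).coeff i‖ * ‖((i * (i - 1) : ℕ) : K)‖ ≤ 1 := by
    intro i hi
    have := norm_Phi_coeff_mul_le κ hh hi
    rwa [hκh, hμ1] at this
  -- binomial terms
  have hbin : ∀ {i : ℕ}, 2 ≤ i → i < p → ‖(p.choose i : K) * α ^ i‖ < 1 := by
    intro i hi hip
    have h1 : p ∣ p.choose i := hpp.dvd_choose_self (by omega) hip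
    obtain ⟨m, hm⟩ := h1
    have h2 : ‖(p.choose i : K)‖ ≤ ‖(p : K)‖ := by
      rw [hm, Nat.cast_mul, norm_mul]
      exact mul_le_of_le_one_right hP0.le (norm_nat_le_one _)
    rw [norm_mul, norm_pow]
    refine lt_of_le_of_lt (mul_le_mul_of_nonneg_right h2 (by positivity)) ?_
    apply lt_of_pow_lt_pow_left₀ p zero_le_one
    rw [one_pow, mul_pow, ← pow_mul, mul_comm i p, pow_mul]
    have h3 : ‖(p : K)‖ ^ p * (‖α‖ ^ p) ^ i = ‖(p : K)‖ ^ (p - i) := by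
      have h4 : ‖(p : K)‖ ^ p = ‖(p : K)‖ ^ (p - i) * ‖(p : K)‖ ^ i := by
        rw [← pow_add]; congr 1; omega
      rw [h4, mul_assoc, ← mul_pow, hα2, one_pow, mul_one]
    rw [h3]
    exact pow_lt_one₀ hP0.le hp (by omega)
  -- small indices
  have hsmall : ∀ {i : ℕ}, 2 ≤ i → i < p → ‖((i * (i - 1) : ℕ) : K)‖ = 1 := by
    intro i hi hip
    apply norm_nat_eq_one hp
    rw [Nat.coprime_comm]
    apply Nat.Coprime.mul_right
    · exact (Nat.Prime.coprime_iff_not_dvd hpp).2 (fun h => by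
        have := Nat.le_of_dvd (by omega) h; omega)
    · exact (Nat.Prime.coprime_iff_not_dvd hpp).2 (fun h => by
        have := Nat.le_of_dvd (by omega) h; omega)
  have hQ0 : ‖Q.coeff 0‖ = 1 := by
    rw [hQc, zero_add, hDc]
    have h1 : ‖(Phi κ h).coeff 2‖ = 1 := by
      have h2 := Phi_coeff_mul κ hh (i := 2) le_rfl
      have h3 := congrArg norm h2
      rw [norm_mul, norm_mul, norm_mul, hsmall le_rfl (by omega), hκh, hμ1, mul_one, one_mul,
        norm_nat_eq_one hp (n := h + 1) ?_, show (2 : ℕ) - 2 = 0 by norm_num,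
        Nat.choose_zero_right] at h3
      · simpa using h3
      · rw [Nat.coprime_comm, Nat.Prime.coprime_iff_not_dvd hpp]
        intro h
        have : p ∣ 1 := (Nat.dvd_add_right hph).1 h
        exact hpp.one_lt.ne' (Nat.dvd_one.1 this)
    have h4 := hbin (i := 2) le_rfl (by omega)
    have h5 : ‖(Phi κ h).coeff 2‖ ≠ ‖-((p.choose 2 : K) * α ^ 2)‖ := by
      rw [h1, norm_neg]; exact h4.ne'
    rw [sub_eq_add_neg, IsUltrametricDist.norm_add_eq_max_of_norm_ne_norm h5, h1, norm_neg]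
    exact max_eq_left h4.le
  refine ⟨κ, ρ, A, Q, by rw [hκh, hμ1], hρ0, hr1, ?_, ?_, ?_, ?_, ?_, ?_, ?_⟩
  · rw [← hQ, hD]; ring
  · simp [hA]
  · intro i hi
    rcases Nat.lt_or_ge i 2 with h1 | h1
    · have : i = 1 := by omega
      subst this
      have h2 : A.coeff 1 = α := by simp [hA, coeff_one]
      rw [h2, pow_one]
      apply lt_of_pow_lt_pow_left₀ p zero_le_one
      rw [one_pow, mul_pow]
      have h3 : ‖ρ‖ ^ p = ‖ρ‖ ^ (p - 1) * ‖ρ‖ := by
        rw [← pow_succ]; congr 1; omega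
      calc ‖α‖ ^ p * ‖ρ‖ ^ p = (‖α‖ ^ p * ‖ρ‖ ^ (p - 1)) * ‖ρ‖ := by rw [h3]; ring
        _ < 1 * 1 := by
          apply mul_lt_mul'' _ hr1 (by positivity) hr0.le
          have hαp : 0 < ‖α‖ ^ p := by
            by_contra hneg
            push Not at hneg
            have : ‖(p : K)‖ * ‖α‖ ^ p ≤ 0 := mul_nonpos_of_nonneg_of_nonpos hP0.le hneg
            linarith
          calc ‖α‖ ^ p * ‖ρ‖ ^ (p - 1) < ‖α‖ ^ p * ‖(p : K)‖ := mul_lt_mul_of_pos_left hrp hαp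
            _ = 1 := by rw [mul_comm]; exact hα2
        _ = 1 := one_mul 1
    · have h2 : A.coeff i = 0 := by
        rw [hA, coeff_add, coeff_one, if_neg (by omega), coeff_C_mul, coeff_X, if_neg (by omega)]
        simp
      rw [h2, norm_zero, zero_mul]
      exact one_pos
  · intro h
    rw [h, norm_zero] at hQ0
    exact zero_ne_one hQ0
  · intro i hi
    rw [hQ0, hQc]
    rcases lt_trichotomy (i + 2) p with hlt | heq | hgt
    · have h1 : ‖D.coeff (i + 2)‖ ≤ 1 := by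
        rw [hDc]
        refine (norm_sub_le_max _ _).trans (max_le ?_ (hbin (by omega) hlt).le)
        have h7 := hPhi (i := i + 2) (by omega)
        rwa [hsmall (by omega) hlt, mul_one] at h7
      calc ‖D.coeff (i + 2)‖ * ‖ρ‖ ^ i ≤ 1 * ‖ρ‖ ^ i := by gcongr
        _ < 1 := by rw [one_mul]; exact pow_lt_one₀ hr0.le hr1 (by omega)
    · rw [heq, hDp, norm_zero, zero_mul]
      exact one_pos
    · have h1 : D.coeff (i + 2) = (Phi κ h).coeff (i + 2) := by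
        rw [hDc, Nat.choose_eq_zero_of_lt hgt]; simp
      rw [h1]
      have h2 := hPhi (i := i + 2) (by omega)
      have h3 := pow_lt_norm_nat_two (K := K) hp hp2 hr0.le hr1 hrp hgt
      rw [show i + 2 - 2 = i by omega] at h3
      have h4 : 0 < ‖(((i + 2) * (i + 2 - 1) : ℕ) : K)‖ := lt_of_le_of_lt (by positivity) h3
      rcases eq_or_ne ((Phi κ h).coeff (i + 2)) 0 with h0 | h0
      · rw [h0, norm_zero, zero_mul]; exact one_pos
      · calc ‖(Phi κ h).coeff (i + 2)‖ * ‖ρ‖ ^ i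
            < ‖(Phi κ h).coeff (i + 2)‖ * ‖(((i + 2) * (i + 2 - 1) : ℕ) : K)‖ :=
              mul_lt_mul_of_pos_left h3 (norm_pos_iff.2 h0)
          _ ≤ 1 := h2
  · rw [hQ0, one_mul]
    apply lt_of_pow_lt_pow_left₀ (p - 1) (by positivity)
    rw [← pow_mul, mul_comm p (p - 1), pow_mul, norm_zeta_sub_one hζ]
    exact hr2
  · intro i hi
    have h1 := norm_kchoose_mul_le κ hh hi
    rw [hκh, hμ1] at h1
    have h2 := pow_lt_norm_nat (K := K) hp hr0.le hr1 hrp (n := i) (by omega)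
    have h4 : 0 < ‖(i : K)‖ := lt_of_le_of_lt (by positivity) h2
    rcases eq_or_ne (κ * (h.choose i : K)) 0 with h0 | h0
    · rw [h0, norm_zero, zero_mul]; exact one_pos
    · calc ‖κ * (h.choose i : K)‖ * ‖ρ‖ ^ i < ‖κ * (h.choose i : K)‖ * ‖(i : K)‖ :=
            mul_lt_mul_of_pos_left h2 (norm_pos_iff.2 h0)
        _ ≤ 1 := h1

end P025H507
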