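import Vale.Agent.P025.R2.H507.LocDef

/-!
# P025, G-LA-b (helper507): the normed algebraic closure `E0` of `F0`
-/

set_option linter.unusedSectionVars false

open Polynomial P025H373

universe u

namespace P025H507

section nn

variable (C : Type u) [NontriviallyNormedField C] [IsUltrametricDist C]

/-- `F0 C` as a nontrivially normed field. -/
@[reducible] noncomputable def nnF0 : NontriviallyNormedField (F0 C) :=
  { (inferInstance : NormedField (F0 C)) with
    non_trivial := by
      obtain ⟨c, hc⟩ := NontriviallyNormedField.non_trivial (α := C)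
      exact ⟨algebraMap C (F0 C) c, by rw [norm_algebraMap_C]; exact hc⟩ }

/-- algebraic closure of `F0 C`, with the spectral norm. -/
abbrev E0 : Type u := AlgebraicClosure (F0 C)

noncomputable instance instNFE0 : NormedField (E0 C) :=
  @spectralNorm.normedField (F0 C) (nnF0 C) (AlgebraicClosure (F0 C)) _ _ _ _ _

noncomputable example : Algebra (F0 C) (E0 C) := inferInstance

example : IsScalarTower (RatFunc C) (F0 C) (E0 C) := inferInstance

instance instUltraE0 : IsUltrametricDist (E0 C) :=
  letI := nnF0 C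
  IsUltrametricDist.isUltrametricDist_of_isNonarchimedean_norm
      (isNonarchimedean_spectralNorm (K := F0 C) (L := AlgebraicClosure (F0 C)))

variable {C}

theorem norm_E0_algebraMap (x : F0 C) : ‖algebraMap (F0 C) (E0 C) x‖ = ‖x‖ :=
  letI := nnF0 C
  spectralNorm_extends (K := F0 C) (L := AlgebraicClosure (F0 C)) x

theorem norm_E0_equiv (σ : E0 C ≃ₐ[F0 C] E0 C) (x : E0 C) : ‖σ x‖ = ‖x‖ :=
  letI := nnF0 C
  (spectralNorm_eq_of_equiv (K := F0 C) (L := AlgebraicClosure (F0 C)) σ x).symm

theorem norm_E0_rat (f : RatFunc C) : ‖algebraMap (RatFunc C) (E0 C) f‖ =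
    ‖algebraMap (RatFunc C) (F0 C) f‖ := by
  rw [IsScalarTower.algebraMap_apply (RatFunc C) (F0 C) (E0 C), norm_E0_algebraMap]

theorem norm_E0_cc (c : C) : ‖cc (algebraMap (RatFunc C) (E0 C)) c‖ = ‖c‖ := by
  rw [cc, norm_E0_rat, ← algebraMap_C_eq, norm_algebraMap_C]

theorem norm_E0_pp [CompleteSpace C] [IsAlgClosed C] (P : C[X]) :
    ‖pp (algebraMap (RatFunc C) (E0 C)) P‖ = gp P := by
  rw [pp, norm_E0_rat, P025H373.norm_algebraMap, gauss_poly]

end nn

end P025H507
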