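import Vale.Agent.P025.R2.H507.Phi

/-!
# P025, G-LA-b (helper507): norm estimates for `(T - α) / (T - ζ α)`
-/

set_option linter.unusedSectionVars false

namespace P025H507

variable {E : Type*} [NormedField E] [IsUltrametricDist E]

lemma norm_sub_le_max' (a b : E) : ‖a - b‖ ≤ max ‖a‖ ‖b‖ := by
  have := IsUltrametricDist.norm_add_le_max a (-b)
  rwa [norm_neg, ← sub_eq_add_neg] at this

lemma norm_eq_of_near {x y : E} (h : ‖x - y‖ < ‖y‖) : ‖x‖ = ‖y‖ := by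
  have h1 : x = y + (x - y) := by ring
  rw [h1, IsUltrametricDist.norm_add_eq_max_of_norm_ne_norm h.ne', max_eq_left h.le]

lemma norm_one_of_near {x : E} (h : ‖x - 1‖ < 1) : ‖x‖ = 1 := by
  have := norm_eq_of_near (x := x) (y := 1) (by rwa [norm_one])
  rwa [norm_one] at this

lemma near_mul {x y : E} (hx : ‖x - 1‖ < 1) (hy : ‖y - 1‖ < 1) : ‖x * y - 1‖ < 1 := by
  have h1 : x * y - 1 = x * (y - 1) + (x - 1) := by ring
  rw [h1]
  refine (IsUltrametricDist.norm_add_le_max _ _).trans_lt (max_lt ?_ hx)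
  rwa [norm_mul, norm_one_of_near hx, one_mul]

lemma near_prod {ι : Type*} (s : Finset ι) {f : ι → E} (h : ∀ k ∈ s, ‖f k - 1‖ < 1) :
    ‖∏ k ∈ s, f k - 1‖ < 1 := by
  classical
  induction s using Finset.induction_on with
  | empty => simp
  | insert a s ha ih =>
    rw [Finset.prod_insert ha]
    exact near_mul (h a (Finset.mem_insert_self _ _))
      (ih fun k hk => h k (Finset.mem_insert_of_mem hk))

lemma near_pow {x : E} (hx : ‖x - 1‖ < 1) (n : ℕ) : ‖x ^ n - 1‖ < 1 := by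
  induction n with
  | zero => simp
  | succ n ih => rw [pow_succ]; exact near_mul ih hx

lemma norm_zeta_pow_sub {p : ℕ} (hp : p ≠ 0) {ζ : E} (hζ : ζ ^ p = 1) (i j : ℕ) :
    ‖ζ ^ i - ζ ^ j‖ ≤ ‖ζ - 1‖ := by
  have hz1 : ‖ζ‖ ≤ 1 := (norm_root_of_unity hp hζ).le
  have h1 := norm_one_sub_pow_le hz1 i
  have h2 := norm_one_sub_pow_le hz1 j
  have h3 : ζ ^ i - ζ ^ j = (1 - ζ ^ j) - (1 - ζ ^ i) := by ring
  rw [h3, ← norm_neg (ζ - 1), neg_sub]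
  exact (norm_sub_le_max' _ _).trans (max_le h2 h1)

lemma prod_eq {p : ℕ} (hp : p ≠ 0) {ζ T α : E} (hζ : IsPrimitiveRoot ζ p) :
    ∏ i ∈ Finset.range p, (T - ζ ^ i * α) = T ^ p - α ^ p := by
  rw [hζ.pow_sub_pow_eq_prod_sub_mul T α (Nat.pos_of_ne_zero hp)]
  have hp' := Nat.pos_of_ne_zero hp
  refine Finset.prod_bij (fun i _ => ζ ^ i) (fun i _ => ?_) (fun i hi j hj hij => ?_)
    (fun ω hω => ?_) (fun i _ => rfl)
  · rw [Polynomial.mem_nthRootsFinset hp', ← pow_mul, mul_comm, pow_mul, hζ.pow_eq_one, one_pow]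
  · exact hζ.pow_inj (Finset.mem_range.1 hi) (Finset.mem_range.1 hj) hij
  · have : NeZero p := ⟨hp⟩
    obtain ⟨i, hi, h⟩ := hζ.eq_pow_of_pow_eq_one ((Polynomial.mem_nthRootsFinset hp' _).1 hω)
    exact ⟨i, Finset.mem_range.2 hi, h⟩

/-- all the factors of `T ^ p - α ^ p` are big. -/
lemma big {p : ℕ} (hp : p ≠ 0) {ζ T α u : E} (hζ : IsPrimitiveRoot ζ p)
    (hT : T ^ p = α ^ p + u) (hα : ‖α‖ = 1) (hbig : ‖ζ - 1‖ ^ p < ‖u‖) (i : ℕ) :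
    ‖ζ - 1‖ < ‖T - ζ ^ i * α‖ := by
  by_contra hle
  push Not at hle
  have h1 : ∀ j, ‖T - ζ ^ j * α‖ ≤ ‖ζ - 1‖ := by
    intro j
    have h2 : T - ζ ^ j * α = (T - ζ ^ i * α) + (ζ ^ i - ζ ^ j) * α := by ring
    rw [h2]
    refine (IsUltrametricDist.norm_add_le_max _ _).trans (max_le hle ?_)
    rw [norm_mul, hα, mul_one]
    exact norm_zeta_pow_sub hp hζ.pow_eq_one i j
  have h3 : u = ∏ j ∈ Finset.range p, (T - ζ ^ j * α) := by
    rw [prod_eq hp hζ, hT]; ring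
  have h4 : ‖u‖ ≤ ‖ζ - 1‖ ^ p := by
    rw [h3, norm_prod]
    calc ∏ j ∈ Finset.range p, ‖T - ζ ^ j * α‖ ≤ ∏ j ∈ Finset.range p, ‖ζ - 1‖ :=
          Finset.prod_le_prod (fun _ _ => norm_nonneg _) (fun j _ => h1 j)
      _ = _ := by rw [Finset.prod_const, Finset.card_range]
  exact absurd hbig (not_lt.2 h4)

/-- the key identity -/
lemma key_eq {ζ η T α Gl δ δ' : E} (heq : Gl * (1 + η * δ) * (T - ζ * α) = (T - α) * (1 + η * δ')) :
    (Gl - 1) * (T - ζ * α) * (1 + η * δ) =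
      (ζ - 1) * α + η * ((T - α) * δ' - (T - ζ * α) * δ) := by
  linear_combination heq

lemma norm_R {ζ η T α δ δ' : E} (hT : ‖T‖ ≤ 1) (hα : ‖α - 1‖ < 1) (hζ : ‖ζ‖ ≤ 1)
    (hη : ‖η‖ < ‖ζ - 1‖) (hδ : ‖δ‖ ≤ 1) (hδ' : ‖δ'‖ ≤ 1) :
    ‖((ζ - 1) * α + η * ((T - α) * δ' - (T - ζ * α) * δ)) - (ζ - 1)‖ < ‖ζ - 1‖ := by
  have hz : 0 < ‖ζ - 1‖ := (norm_nonneg _).trans_lt hη
  have hα1 : ‖α‖ = 1 := norm_one_of_near hα
  have h1 : ((ζ - 1) * α + η * ((T - α) * δ' - (T - ζ * α) * δ)) - (ζ - 1) =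
      (ζ - 1) * (α - 1) + η * ((T - α) * δ' - (T - ζ * α) * δ) := by ring
  rw [h1]
  refine (IsUltrametricDist.norm_add_le_max _ _).trans_lt (max_lt ?_ ?_)
  · rw [norm_mul]; exact mul_lt_of_lt_one_right hz hα
  · rw [norm_mul]
    refine (mul_le_of_le_one_right (norm_nonneg _) ?_).trans_lt hη
    have h2 : ‖T - α‖ ≤ 1 := (norm_sub_le_max' _ _).trans (max_le hT hα1.le)
    have h3 : ‖T - ζ * α‖ ≤ 1 := by
      refine (norm_sub_le_max' _ _).trans (max_le hT ?_)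
      rw [norm_mul, hα1, mul_one]; exact hζ
    refine (norm_sub_le_max' _ _).trans (max_le ?_ ?_)
    · rw [norm_mul]; exact mul_le_one₀ h2 (norm_nonneg _) hδ'
    · rw [norm_mul]; exact mul_le_one₀ h3 (norm_nonneg _) hδ

/-- `G ^ l` is a 1-unit. -/
lemma pow_near {ζ η T α Gl δ δ' : E} (hT : ‖T‖ ≤ 1) (hα : ‖α - 1‖ < 1) (hζ : ‖ζ‖ ≤ 1)
    (hζ1 : ‖ζ - 1‖ < 1) (hbig : ‖ζ - 1‖ < ‖T - ζ * α‖)
    (hη : ‖η‖ < ‖ζ - 1‖) (hδ : ‖δ‖ ≤ 1) (hδ' : ‖δ'‖ ≤ 1)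
    (heq : Gl * (1 + η * δ) * (T - ζ * α) = (T - α) * (1 + η * δ')) : ‖Gl - 1‖ < 1 := by
  have h1 := key_eq heq
  have h2 := norm_eq_of_near (norm_R (T := T) hT hα hζ hη hδ hδ')
  rw [← h1, norm_mul, norm_mul] at h2
  have h3 : ‖1 + η * δ‖ = 1 := by
    apply norm_one_of_near
    rw [add_sub_cancel_left, norm_mul]
    exact (mul_le_of_le_one_right (norm_nonneg _) hδ).trans_lt (hη.trans hζ1)
  rw [h3, mul_one] at h2
  by_contra hge
  push Not at hge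
  have h4 : ‖T - ζ * α‖ ≤ ‖Gl - 1‖ * ‖T - ζ * α‖ := le_mul_of_one_le_left (norm_nonneg _) hge
  rw [h2] at h4
  exact absurd hbig (not_lt.2 h4)

/-- main estimate -/
lemma est_main {l : ℕ} {ζ η T α G δ δ' : E} (hl : ‖(l : E)‖ = 1) (hT : ‖T‖ ≤ 1)
    (hα : ‖α - 1‖ < 1) (hζ : ‖ζ‖ ≤ 1) (hζ1 : ‖ζ - 1‖ < 1)
    (hη : ‖η‖ < ‖ζ - 1‖) (hδ : ‖δ‖ ≤ 1) (hδ' : ‖δ'‖ ≤ 1) (hG : ‖G - 1‖ < 1)
    (heq : G ^ l * (1 + η * δ) * (T - ζ * α) = (T - α) * (1 + η * δ')) :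
    ‖l * ((G - 1) * (T - ζ * α)) - (ζ - 1)‖ < ‖ζ - 1‖ := by
  have hz : 0 < ‖ζ - 1‖ := (norm_nonneg _).trans_lt hη
  have h1 := key_eq heq
  have hR := norm_R (T := T) hT hα hζ hη hδ hδ'
  set R := (ζ - 1) * α + η * ((T - α) * δ' - (T - ζ * α) * δ) with hRdef
  have h2 := norm_eq_of_near hR
  set W := (G - 1) * (T - ζ * α) with hW
  set S := ∑ i ∈ Finset.range l, G ^ i with hS
  have hG1 : G ^ l - 1 = (G - 1) * S := by rw [hS, mul_comm, geom_sum_mul]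
  have hSl : ‖S - l‖ < 1 := by
    have h3 : S - l = ∑ i ∈ Finset.range l, (G ^ i - 1) := by
      rw [Finset.sum_sub_distrib, hS]; simp
    rw [h3]
    rcases (Finset.range l).eq_empty_or_nonempty with h0 | h0
    · rw [h0]; simp
    · obtain ⟨k, hk, hle⟩ := IsUltrametricDist.exists_norm_finsetSum_le (Finset.range l)
        (fun i => G ^ i - 1)
      exact hle.trans_lt (near_pow hG k)
  have hηδ : ‖η * δ‖ < 1 := by
    rw [norm_mul]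
    exact (mul_le_of_le_one_right (norm_nonneg _) hδ).trans_lt (hη.trans hζ1)
  have hSn : ‖S‖ = 1 := by
    rw [← hl]
    apply norm_eq_of_near
    rwa [hl]
  have h4 : ‖S * (1 + η * δ) - l‖ < 1 := by
    have h5 : S * (1 + η * δ) - l = (S - l) + S * (η * δ) := by ring
    rw [h5]
    refine (IsUltrametricDist.norm_add_le_max _ _).trans_lt (max_lt hSl ?_)
    rwa [norm_mul, hSn, one_mul]
  have h6 : W * (S * (1 + η * δ)) = R := by
    rw [← h1, hG1, hW]; ring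
  have h7 : ‖S * (1 + η * δ)‖ = 1 := by
    rw [← hl]
    apply norm_eq_of_near
    rwa [hl]
  have h8 : ‖W‖ = ‖ζ - 1‖ := by
    rw [← h2, ← h6, norm_mul W, h7, mul_one]
  have h9 : l * W - (ζ - 1) = -(W * (S * (1 + η * δ) - l)) + (R - (ζ - 1)) := by
    rw [← h6]; ring
  rw [h9]
  refine (IsUltrametricDist.norm_add_le_max _ _).trans_lt (max_lt ?_ hR)
  rw [norm_neg, norm_mul, h8]
  exact mul_lt_of_lt_one_right hz h4

end P025H507
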