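import Vale.Agent.P025.R2.H507.Base

/-!
# P025, G-LA-b (helper507): integral elements, norms, valuation rings, units
-/

set_option linter.unusedSectionVars false

open Polynomial P025H373

universe u

namespace P025H507

variable {C : Type u} [NontriviallyNormedField C] [IsUltrametricDist C] [CompleteSpace C]
  [IsAlgClosed C]

theorem norm_le_one_of_monic {E : Type*} [NormedField E] [IsUltrametricDist E] {z : E}
    {P : E[X]} (hP : P.Monic) (h : ∀ k, ‖P.coeff k‖ ≤ 1) (hz : P.eval z = 0) : ‖z‖ ≤ 1 := by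
  by_contra hlt
  push Not at hlt
  rcases Nat.eq_zero_or_pos P.natDegree with h0 | hpos
  · rw [hP.natDegree_eq_zero.1 h0, eval_one] at hz
    exact one_ne_zero hz
  have h1 : z ^ P.natDegree = -∑ k ∈ Finset.range P.natDegree, P.coeff k * z ^ k := by
    rw [Polynomial.eval_eq_sum_range, Finset.sum_range_succ, hP.coeff_natDegree, one_mul] at hz
    linear_combination hz
  have h2 : ‖z‖ ^ P.natDegree ≤ ‖z‖ ^ (P.natDegree - 1) := by
    rw [← norm_pow, h1, norm_neg]
    refine IsUltrametricDist.norm_sum_le_of_forall_le_of_nonneg (by positivity) (fun k hk => ?_)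
    rw [Finset.mem_range] at hk
    rw [norm_mul, norm_pow]
    calc ‖P.coeff k‖ * ‖z‖ ^ k ≤ 1 * ‖z‖ ^ (P.natDegree - 1) := by
          apply mul_le_mul (h k) _ (by positivity) zero_le_one
          exact pow_le_pow_right₀ hlt.le (by omega)
      _ = _ := one_mul _
  have h3 : ‖z‖ ^ (P.natDegree - 1) < ‖z‖ ^ P.natDegree :=
    pow_lt_pow_right₀ hlt (by omega)
  exact absurd h2 (not_le.2 h3)

variable {A : Subalgebra C (F0 C)}

theorem IntOver.norm_le {E : Type*} [NormedField E] [IsUltrametricDist E] {i : RatFunc C →+* E}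
    (h : ∀ f ∈ OO A, ‖i f‖ ≤ 1) {z : E} (hz : IntOver A i z) : ‖z‖ ≤ 1 := by
  obtain ⟨P, hP, hz⟩ := hz
  refine norm_le_one_of_monic (hP.map (i.comp (OO A).subtype)) (fun k => ?_)
    (by rw [Polynomial.eval_map]; exact hz)
  rw [Polynomial.coeff_map]
  exact h _ (P.coeff k).2

theorem IntOver.mem_vs {E : Type*} [Field E] {O : ValuationSubring E} {i : RatFunc C →+* E}
    (h : ∀ f ∈ OO A, i f ∈ O) {z : E} (hz : IntOver A i z) : z ∈ O := by
  obtain ⟨P, hP, hz⟩ := hz
  let j : OO A →+* O := (i.comp (OO A).subtype).codRestrict O.toSubring fun x => h _ x.2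
  have h1 : IsIntegral O z := by
    refine ⟨P.map j, hP.map j, ?_⟩
    rw [Polynomial.eval₂_map]
    exact hz
  obtain ⟨y, hy⟩ := IsIntegrallyClosed.algebraMap_eq_of_integral h1
  rw [← hy]
  exact y.2

/-- transitivity -/
theorem IntOver.trans {A' : Subalgebra C (F0 C)} {L : Type*} [CommRing L] {i k : RatFunc C →+* L}
    (h : ∀ f ∈ OO A', IntOver A i (k f)) {z : L} (hz : IntOver A' k z) : IntOver A i z := by
  let alg : Algebra (OO A) L := (i.comp (OO A).subtype).toAlgebra
  obtain ⟨P, hP, hz⟩ := hz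
  let B := integralClosure (OO A) L
  let j : OO A' →+* B := (k.comp (OO A').subtype).codRestrict B.toSubring fun x => h _ x.2
  have h1 : IsIntegral B z := by
    refine ⟨P.map j, hP.map j, ?_⟩
    rw [Polynomial.eval₂_map]
    exact hz
  exact isIntegral_trans (R := OO A) z h1

/-- `1 + η δ` is a unit. -/
theorem IntOver.exists_inv (hA : IsClosed (A : Set (F0 C))) {L : Type*} [Field L]
    {i : RatFunc C →+* L} {η : C} (hη : ‖η‖ < 1) {δ : L} (hδ : IntOver A i δ) :
    1 + cc i η * δ ≠ 0 ∧ ∃ δ', IntOver A i δ' ∧ (1 + cc i η * δ)⁻¹ = 1 + cc i η * δ' := by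
  let alg : Algebra (OO A) L := (i.comp (OO A).subtype).toAlgebra
  let B := integralClosure (OO A) L
  have hcB : cc i η ∈ B := IntOver.cst hη.le
  let δB : B := ⟨δ, hδ⟩
  let ηB : B := ⟨cc i η, hcB⟩
  have hηm : RatFunc.C η ∈ OO A := const_mem hη.le
  have hunit : IsUnit (1 + ηB * δB) := by
    by_contra hnu
    obtain ⟨N, hN, hmem⟩ := exists_max_ideal_of_mem_nonunits hnu
    have hmax : (N.comap (algebraMap (OO A) B)).IsMaximal :=
      Ideal.isMaximal_comap_of_isIntegral_of_isMaximal N
    have h1 : (⟨RatFunc.C η, hηm⟩ : OO A) ∈ N.comap (algebraMap (OO A) B) := by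
      by_contra hnot
      obtain ⟨x, hx⟩ := hmax.exists_inv hnot
      obtain ⟨y, hy, hxy⟩ := hx
      -- y = 1 - x η is a unit
      have hy1 : (y : RatFunc C) = 1 - x * RatFunc.C η := by
        have := congrArg Subtype.val hxy
        simp only [Subring.coe_add, Subring.coe_mul, Subring.coe_one] at this
        linear_combination this
      have hyinv : IsUnit y := by
        have hh : algebraMap (RatFunc C) (F0 C) (-(x * RatFunc.C η)) ∈ A :=
          ((OO A).neg_mem ((OO A).mul_mem x.2 hηm)).1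
        have hh1 : ‖algebraMap (RatFunc C) (F0 C) (-(x * RatFunc.C η))‖ < 1 := by
          rw [map_neg, norm_neg, map_mul, norm_mul, ← algebraMap_C_eq, norm_algebraMap_C]
          calc _ ≤ 1 * ‖η‖ := by gcongr; exact x.2.2
            _ < 1 := by rwa [one_mul]
        have h3 := P025H632.inv_one_add_mem hA hh hh1
        have h4 : algebraMap (RatFunc C) (F0 C) (y : RatFunc C) =
            1 + algebraMap (RatFunc C) (F0 C) (-(x * RatFunc.C η)) := by
          rw [hy1, map_sub, map_one, map_neg, sub_eq_add_neg]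
        have h5 : ‖algebraMap (RatFunc C) (F0 C) (y : RatFunc C)‖ = 1 := by
          rw [h4]
          have h6 : ‖(1 : F0 C)‖ ≠ ‖algebraMap (RatFunc C) (F0 C) (-(x * RatFunc.C η))‖ := by
            rw [norm_one]; exact hh1.ne'
          rw [IsUltrametricDist.norm_add_eq_max_of_norm_ne_norm h6, norm_one, max_eq_left hh1.le]
        have hy0 : (y : RatFunc C) ≠ 0 := by
          intro h0
          rw [h0, map_zero, norm_zero] at h5
          exact zero_ne_one h5
        have hmem : (y : RatFunc C)⁻¹ ∈ OO A := by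
          refine ⟨?_, ?_⟩
          · rw [map_inv₀, h4]; exact h3
          · rw [map_inv₀, norm_inv, h5, inv_one]
        exact IsUnit.of_mul_eq_one ⟨_, hmem⟩ (Subtype.ext (by simp [hy0]))
      exact hmax.ne_top (Ideal.eq_top_of_isUnit_mem _ hy hyinv)
    have h2 : ηB ∈ N := h1
    have h3 : (1 : B) ∈ N := by
      have : (1 : B) = (1 + ηB * δB) - ηB * δB := by ring
      rw [this]
      exact N.sub_mem hmem (N.mul_mem_right _ h2)
    exact hN.ne_top ((Ideal.eq_top_iff_one N).2 h3)
  obtain ⟨w, hw⟩ := hunit.exists_right_inv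
  have hw' : (1 + cc i η * δ) * (w : L) = 1 := congrArg Subtype.val hw
  have hne : 1 + cc i η * δ ≠ 0 := left_ne_zero_of_mul_eq_one hw'
  refine ⟨hne, -(δ * w), (hδ.mul w.2).neg, ?_⟩
  rw [inv_eq_of_mul_eq_one_right hw']
  linear_combination hw'

end P025H507
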