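import Vale.Agent.P025.R2.H507.E0
import Vale.Agent.P025.R2.H507.Est
import Vale.Agent.P025.R2.H507.IntLem

/-!
# P025, G-LA-b (helper507): `φ` is not a `p`-th power in `F0`, conjugation, estimates for `Loc`
-/

set_option linter.unusedSectionVars false

open Polynomial P025H373

universe u

namespace P025H507

variable {C : Type u} [NontriviallyNormedField C] [IsUltrametricDist C] [CompleteSpace C]
  [IsAlgClosed C]

section ring

variable {L : Type*} [CommRing L] (i : RatFunc C →+* L)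

lemma pp_add (P Q : C[X]) : pp i (P + Q) = pp i P + pp i Q := by simp [pp]
lemma pp_sub (P Q : C[X]) : pp i (P - Q) = pp i P - pp i Q := by simp [pp]
lemma pp_mul (P Q : C[X]) : pp i (P * Q) = pp i P * pp i Q := by simp [pp]
lemma pp_pow (P : C[X]) (n : ℕ) : pp i (P ^ n) = pp i P ^ n := by simp [pp]
lemma pp_one : pp i (1 : C[X]) = 1 := by simp [pp]
lemma pp_C (c : C) : pp i (Polynomial.C c) = cc i c := by simp [pp, cc]
lemma pp_X : pp i (X : C[X]) = i RatFunc.X := by simp [pp]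
lemma cc_sub (a b : C) : cc i (a - b) = cc i a - cc i b := by simp [cc]
lemma cc_mul (a b : C) : cc i (a * b) = cc i a * cc i b := by simp [cc]
lemma cc_one : cc i (1 : C) = 1 := by simp [cc]
lemma cc_pow (a : C) (n : ℕ) : cc i (a ^ n) = cc i a ^ n := by simp [cc]
lemma cc_natCast (n : ℕ) : cc i (n : C) = n := by simp [cc]

lemma map_pp {L' : Type*} [CommRing L'] (f : L →+* L') (P : C[X]) :
    f (pp i P) = pp (f.comp i) P := rfl

lemma map_cc {L' : Type*} [CommRing L'] (f : L →+* L') (c : C) :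
    f (cc i c) = cc (f.comp i) c := rfl

end ring

section normed

variable {E : Type*} [NormedField E] [IsUltrametricDist E] {i : RatFunc C →+* E}
  (hi : ∀ P : C[X], ‖pp i P‖ = gp P)

include hi

lemma norm_cc (c : C) : ‖cc i c‖ = ‖c‖ := by rw [← pp_C, hi, gp_C]

variable {p l : ℕ} (D : Loc C p l)

lemma norm_α_sub : ‖pp i D.α - 1‖ < 1 := by
  rw [← pp_one i, ← pp_sub, hi]; exact D.hα

lemma norm_φ_sub : ‖pp i D.φ - 1‖ < 1 := by
  rw [← pp_one i, ← pp_sub, hi]; exact D.hφ1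

lemma norm_T (hp : p ≠ 0) {T : E} (hT : T ^ p = pp i D.φ) : ‖T‖ = 1 := by
  have h1 : ‖T‖ ^ p = 1 := by
    rw [← norm_pow, hT]; exact norm_one_of_near (norm_φ_sub hi D)
  exact (pow_eq_one_iff_of_nonneg (norm_nonneg _) hp).1 h1

lemma norm_ζ_sub : ‖cc i D.ζ - 1‖ = ‖D.ζ - 1‖ := by
  rw [← cc_one i, ← cc_sub, norm_cc hi]

omit hi in
lemma prim (D : Loc C p l) : IsPrimitiveRoot (cc i D.ζ) p :=
  D.hζ.map_of_injective (f := i.comp RatFunc.C) (i.comp RatFunc.C).injective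

lemma gp_u : gp D.u = ‖D.c‖ := by
  have h1 : ‖pp i D.u - cc i D.c‖ < ‖cc i D.c‖ := by
    rw [← pp_C, ← pp_sub, hi, hi, gp_C]; exact D.hu
  have h2 := norm_eq_of_near h1
  rwa [hi, norm_cc hi] at h2

lemma norm_u : ‖pp i (X ^ l * D.u)‖ = ‖D.c‖ := by
  rw [hi, gp_mul, gp_X_pow, one_mul, gp_u hi D]

lemma eq_u (hT : E) (h : hT ^ p = pp i D.φ) : hT ^ p = pp i D.α ^ p + pp i (X ^ l * D.u) := by
  rw [h, D.hφ, pp_add, pp_pow]

lemma big_T (hp : p ≠ 0) {T : E} (hT : T ^ p = pp i D.φ) (k : ℕ) :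
    ‖D.ζ - 1‖ < ‖T - cc i D.ζ ^ k * pp i D.α‖ := by
  rw [← norm_ζ_sub hi D]
  apply big hp (prim D) (eq_u hi D T hT) (norm_one_of_near (norm_α_sub hi D))
  rw [norm_u hi D, norm_ζ_sub hi D]
  exact D.hbig

end normed

lemma hiF0 (P : C[X]) : ‖pp (algebraMap (RatFunc C) (F0 C)) P‖ = gp P := by
  rw [pp, P025H373.norm_algebraMap, gauss_poly]

lemma norm_zeta_lt {p : ℕ} (hp : p.Prime) (hpC : ‖(p : C)‖ < 1) {ζ : C}
    (hζ : IsPrimitiveRoot ζ p) : ‖ζ - 1‖ < 1 := by
  have hf : Fact p.Prime := ⟨hp⟩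
  have h1 := norm_zeta_sub_one hζ
  by_contra hge
  push Not at hge
  have h2 := one_le_pow₀ hge (n := p - 1)
  rw [h1] at h2
  exact absurd hpC (not_lt.2 h2)

/-- `φ` is not a `p`-th power in `F0`. -/
theorem not_pow_F0 {p l : ℕ} (hp : p.Prime) (hl : l.Prime) (hlp : l ≠ p) (D : Loc C p l)
    (w : F0 C) : w ^ p ≠ algebraMap (RatFunc C) (F0 C) (algebraMap C[X] (RatFunc C) D.φ) := by
  intro hw
  set i := algebraMap (RatFunc C) (F0 C) with hi
  have hw' : w ^ p = pp i D.φ := hw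
  have hbig := fun k => big_T hiF0 D hp.ne_zero hw' k
  set d := w - pp i D.α with hd
  have hd1 : ‖D.ζ - 1‖ < ‖d‖ := by
    have := hbig 0
    rwa [pow_zero, one_mul] at this
  have hd0 : d ≠ 0 := by
    rw [← norm_pos_iff]
    exact (norm_nonneg _).trans_lt hd1
  have hw1 : ∀ k, wind C (w - cc i D.ζ ^ k * pp i D.α) = wind C d := by
    intro k
    apply wind_eq_of_norm_sub_lt
    have h2 : w - cc i D.ζ ^ k * pp i D.α - d = -((cc i D.ζ ^ k - cc i D.ζ ^ 0) * pp i D.α) := by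
      rw [hd]; ring
    rw [h2, norm_neg, norm_mul, norm_one_of_near (norm_α_sub hiF0 D), mul_one]
    refine (norm_zeta_pow_sub hp.ne_zero (prim D).pow_eq_one k 0).trans_lt ?_
    rw [norm_ζ_sub hiF0 D]
    exact hd1
  have hprod := prod_eq hp.ne_zero (T := w) (α := pp i D.α) (prim (i := i) D)
  have hne : ∀ k, w - cc i D.ζ ^ k * pp i D.α ≠ 0 := by
    intro k
    rw [← norm_pos_iff]
    exact (norm_nonneg _).trans_lt (hbig k)
  have hwprod : ∀ n : ℕ, wind C (∏ k ∈ Finset.range n, (w - cc i D.ζ ^ k * pp i D.α)) =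
      n * wind C d ∧ ∏ k ∈ Finset.range n, (w - cc i D.ζ ^ k * pp i D.α) ≠ 0 := by
    intro n
    induction n with
    | zero => simp [wind_one]
    | succ n ih =>
      rw [Finset.prod_range_succ]
      refine ⟨?_, mul_ne_zero ih.2 (hne n)⟩
      rw [wind_mul ih.2 (hne n), ih.1, hw1]
      push_cast; ring
  have h3 : wind C (w ^ p - pp i D.α ^ p) = p * wind C d := by
    rw [← hprod]; exact (hwprod p).1
  have h4 : w ^ p - pp i D.α ^ p = tt C ^ l * aeval (tt C) D.u := by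
    have h5 := eq_u hiF0 D w hw'
    rw [h5, add_sub_cancel_left, pp_mul, pp_pow, pp_X, pp, P025H373.algebraMap_poly]
    rfl
  have hc0 : D.c ≠ 0 := by
    rw [← norm_pos_iff]
    exact (pow_nonneg (norm_nonneg _) _).trans_lt D.hbig
  have h6 : wind C (aeval (tt C) D.u) = 0 := by
    rw [← wind_const D.c]
    apply wind_eq_of_norm_sub_lt
    have h7 : aeval (tt C) D.u - algebraMap C (F0 C) D.c = aeval (tt C) (D.u - Polynomial.C D.c) := by
      rw [map_sub, aeval_C]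
    rw [h7, norm_aeval, norm_algebraMap_C]
    exact D.hu
  have hu0 : aeval (tt C) D.u ≠ 0 := by
    rw [← norm_pos_iff, norm_aeval, gp_u hiF0 D, norm_pos_iff]
    exact hc0
  rw [h4, wind_mul (pow_ne_zero _ P025H373.tt_ne_zero) hu0, wind_pow P025H373.tt_ne_zero, wind_tt,
    h6, mul_one, add_zero] at h3
  have h8 : (p : ℤ) ∣ (l : ℤ) := ⟨_, h3⟩
  rw [Int.natCast_dvd_natCast] at h8
  exact hlp ((Nat.prime_dvd_prime_iff_eq hp hl).1 h8).symm

/-- two roots of `X ^ p - φ` in `E0` are conjugate over `F0`. -/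
theorem exists_conj {p l : ℕ} (hp : p.Prime) (hl : l.Prime) (hlp : l ≠ p) (D : Loc C p l)
    {T T' : E0 C} (hT : T ^ p = pp (algebraMap (RatFunc C) (E0 C)) D.φ)
    (hT' : T' ^ p = pp (algebraMap (RatFunc C) (E0 C)) D.φ) :
    ∃ σ : E0 C ≃ₐ[F0 C] E0 C, σ T = T' := by
  set a : F0 C := algebraMap (RatFunc C) (F0 C) (algebraMap C[X] (RatFunc C) D.φ) with ha
  have hirr : Irreducible (X ^ p - Polynomial.C a : (F0 C)[X]) :=
    X_pow_sub_C_irreducible_of_prime hp (fun b => not_pow_F0 hp hl hlp D b)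
  have hmonic : (X ^ p - Polynomial.C a : (F0 C)[X]).Monic := monic_X_pow_sub_C a hp.ne_zero
  have key : ∀ {S : E0 C}, S ^ p = pp (algebraMap (RatFunc C) (E0 C)) D.φ →
      minpoly (F0 C) S = X ^ p - Polynomial.C a := by
    intro S hS
    refine (minpoly.eq_of_irreducible_of_monic hirr ?_ hmonic).symm
    rw [map_sub, map_pow, aeval_X, aeval_C, hS, pp, ha,
      ← IsScalarTower.algebraMap_apply (RatFunc C) (F0 C) (E0 C), sub_self]
  have h1 : IsConjRoot (F0 C) T' T := by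
    rw [isConjRoot_def, key hT, key hT']
  exact isConjRoot_iff_exists_algEquiv.1 h1

end P025H507
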