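import Mathlib

/-! # P025, G-LA-b: norms of natural numbers and binomial coefficients -/

open Polynomial

namespace P025H507

variable {K : Type*} [NormedField K] [IsUltrametricDist K]

lemma norm_nat_le_one (n : ℕ) : ‖(n : K)‖ ≤ 1 :=
  IsUltrametricDist.norm_natCast_le_one K n

lemma norm_int_le_one (n : ℤ) : ‖(n : K)‖ ≤ 1 :=
  IsUltrametricDist.norm_intCast_le_one K n

/-- naturals prime to `p` have norm one -/
lemma norm_nat_eq_one {p : ℕ} (hp : ‖(p : K)‖ < 1) {n : ℕ} (h : Nat.Coprime n p) :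
    ‖(n : K)‖ = 1 := by
  apply le_antisymm (norm_nat_le_one n)
  by_contra hlt
  push Not at hlt
  have h1 : (n : ℤ) * Nat.gcdA n p + (p : ℤ) * Nat.gcdB n p = 1 := by
    have := Nat.gcd_eq_gcd_ab n p
    rw [Nat.Coprime] at h
    rw [h] at this
    exact_mod_cast this.symm
  have h2 : (n : K) * (Nat.gcdA n p : ℤ) + (p : K) * (Nat.gcdB n p : ℤ) = 1 := by
    exact_mod_cast congrArg (fun z : ℤ => (z : K)) h1
  have h3 : ‖(n : K) * (Nat.gcdA n p : ℤ) + (p : K) * (Nat.gcdB n p : ℤ)‖ < 1 := by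
    refine lt_of_le_of_lt (IsUltrametricDist.norm_add_le_max _ _) (max_lt ?_ ?_)
    · rw [norm_mul]
      exact lt_of_le_of_lt (mul_le_of_le_one_right (norm_nonneg _) (norm_int_le_one _)) hlt
    · rw [norm_mul]
      exact lt_of_le_of_lt (mul_le_of_le_one_right (norm_nonneg _) (norm_int_le_one _)) hp
  rw [h2, norm_one] at h3
  exact lt_irrefl _ h3

/-- the norm of a natural number is the power of `‖p‖` given by the `p`-adic valuation -/
lemma norm_nat_eq {p : ℕ} [Fact p.Prime] (hp : ‖(p : K)‖ < 1) {n : ℕ} (hn : n ≠ 0) :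
    ‖(n : K)‖ = ‖(p : K)‖ ^ (padicValNat p n) := by
  obtain ⟨m, hm⟩ : p ^ padicValNat p n ∣ n := pow_padicValNat_dvd
  have hcop : Nat.Coprime m p := by
    rw [Nat.coprime_comm, (Nat.Prime.coprime_iff_not_dvd Fact.out)]
    rintro ⟨k, hk⟩
    apply pow_succ_padicValNat_not_dvd (p := p) hn
    refine ⟨k, ?_⟩
    rw [pow_succ, mul_assoc, ← hk]
    exact hm
  calc ‖(n : K)‖ = ‖((p ^ padicValNat p n * m : ℕ) : K)‖ := by rw [← hm]
    _ = _ := by rw [Nat.cast_mul, Nat.cast_pow, norm_mul, norm_pow, norm_nat_eq_one hp hcop, mul_one]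

lemma pow_bound {p : ℕ} (hp1 : 1 ≤ p) (k : ℕ) : (p - 1) * k + 1 ≤ p ^ k := by
  induction k with
  | zero => simp
  | succ k ih =>
    have h4 : 1 ≤ p ^ k := Nat.one_le_pow _ _ (by omega)
    have : p ^ (k + 1) = p ^ k * (p - 1) + p ^ k := by
      have h3 : p ^ k * (p - 1) + p ^ k = p ^ k * (p - 1 + 1) := by ring
      rw [h3, show p - 1 + 1 = p by omega, pow_succ]
    rw [this]
    nlinarith [Nat.zero_le (p - 1)]

/-- `(p-1) v_p(n) ≤ n - 1` -/
lemma val_bound {p : ℕ} [Fact p.Prime] {n : ℕ} (hn : n ≠ 0) :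
    (p - 1) * padicValNat p n + 1 ≤ n :=
  (pow_bound (Fact.out : p.Prime).one_le _).trans
    (Nat.le_of_dvd (Nat.pos_of_ne_zero hn) pow_padicValNat_dvd)

/-- a sharper bound -/
lemma val_bound_two {p : ℕ} [Fact p.Prime] {n : ℕ} (hn : n ≠ 0) (hnp : n ≠ p) (hp2 : p ≠ 2) :
    (p - 1) * padicValNat p n + 2 ≤ n ∨ padicValNat p n = 0 := by
  have hp3 : 3 ≤ p := by
    have := (Fact.out : p.Prime).two_le
    omega
  rcases Nat.eq_zero_or_pos (padicValNat p n) with h0 | hpos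
  · exact Or.inr h0
  left
  obtain ⟨m, hm⟩ : p ^ padicValNat p n ∣ n := pow_padicValNat_dvd
  have hm0 : m ≠ 0 := by
    rintro rfl
    exact hn (by rw [hm, mul_zero])
  obtain ⟨k, hk⟩ : ∃ k, padicValNat p n = k + 1 := ⟨padicValNat p n - 1, by omega⟩
  rw [hk] at hm ⊢
  obtain ⟨t, ht⟩ : ∃ t, p = t + 1 := ⟨p - 1, by omega⟩
  have h9 : (p - 1) = t := by omega
  rcases Nat.eq_zero_or_pos k with hk0 | hkpos
  · subst hk0
    have hm1 : m ≠ 1 := by
      rintro rfl
      apply hnp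
      rw [hm]; simp
    have : 2 ≤ m := by omega
    rw [h9]
    simp only [zero_add, pow_one, mul_one] at hm ⊢
    have : p * 2 ≤ p * m := Nat.mul_le_mul_left _ this
    omega
  · have h5 := pow_bound (p := p) (by omega) k
    have h6 : p ^ (k + 1) ≤ n := by
      rw [hm]
      exact Nat.le_mul_of_pos_right _ (Nat.pos_of_ne_zero hm0)
    rw [h9] at h5 ⊢
    have h10 : t * (k + 1) + 2 ≤ p * p ^ k := by
      have : p * p ^ k = t * p ^ k + p ^ k := by rw [ht]; ring
      rw [this]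
      have h12 : 2 ≤ t := by omega
      have h13 : t * 1 ≤ t * k := Nat.mul_le_mul_left _ hkpos
      have h14 : t * (t * k + 1) ≤ t * p ^ k := Nat.mul_le_mul_left _ h5
      have h15 : 2 * (t * k) ≤ t * (t * k) := Nat.mul_le_mul_right _ h12
      nlinarith
    have h7 : p ^ (k + 1) = p * p ^ k := by rw [pow_succ]; ring
    omega

end P025H507
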