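import Vale.Agent.P025.R2.H507.LocLem
import Vale.Agent.P025.R2.H507.A1Int

/-!
# P025, G-LA-b (helper507): `(T - α) / (T - ζ α)` is not an `l`-th power over `F1`
-/

set_option linter.unusedSectionVars false

open Polynomial P025H373

universe u

namespace P025H507

variable {C : Type u} [NontriviallyNormedField C] [IsUltrametricDist C] [CompleteSpace C]
  [IsAlgClosed C]

/-- `C(t) → F1`. -/
noncomputable def i1 (E : Type*) [CommRing E] [Algebra (F1 C) E] : RatFunc C →+* E :=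
  (algebraMap (F1 C) E).comp (algebraMap (RatFunc C) (F1 C))

/-- `A1 → F1` -/
noncomputable def iA1 : A1 C →+* F1 C where
  toFun x := ⟨x, A1_le_F1 x.2⟩
  map_zero' := rfl
  map_one' := rfl
  map_add' _ _ := rfl
  map_mul' _ _ := rfl

lemma exists_near_root {E : Type*} [NormedField E] [IsUltrametricDist E] {l : ℕ} (hl : l ≠ 0)
    {ω G : E} (hω : IsPrimitiveRoot ω l) (hG : ‖G ^ l - 1‖ < 1) : ∃ k, ‖G - ω ^ k‖ < 1 := by
  by_contra hno
  push Not at hno
  have h1 := prod_eq hl (T := G) (α := 1) hω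
  rw [one_pow] at h1
  rw [← h1, norm_prod] at hG
  refine absurd hG (not_lt.2 ?_)
  calc (1 : ℝ) = ∏ i ∈ Finset.range l, (1 : ℝ) := by simp
    _ ≤ _ := Finset.prod_le_prod (fun _ _ => zero_le_one) (fun j _ => by
      rw [mul_one]; exact hno j)

section main

variable {p l : ℕ} (D : Loc C p l) {E : Type*} [Field E] [Algebra (F1 C) E] {T : E}

lemma comp_i1 (τ : E →ₐ[F1 C] E0 C) :
    (τ : E →+* E0 C).comp (i1 E) = algebraMap (RatFunc C) (E0 C) := by
  rw [i1, ← RingHom.comp_assoc, AlgHom.comp_algebraMap]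
  rfl

lemma tau_pp (τ : E →ₐ[F1 C] E0 C) (P : C[X]) :
    τ (pp (i1 E) P) = pp (algebraMap (RatFunc C) (E0 C)) P := by
  rw [← comp_i1 τ]; rfl

lemma tau_cc (τ : E →ₐ[F1 C] E0 C) (c : C) :
    τ (cc (i1 E) c) = cc (algebraMap (RatFunc C) (E0 C)) c := by
  rw [← comp_i1 τ]; rfl

lemma adjoin_top (hp : p ≠ 0) (hT : T ^ p = pp (i1 E) D.φ)
    (hE : IntermediateField.adjoin (F1 C) {T} = ⊤) :
    IsIntegral (F1 C) T ∧ Algebra.adjoin (F1 C) {T} = ⊤ := by
  have hint : IsIntegral (F1 C) T := by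
    refine ⟨X ^ p - Polynomial.C (pp (algebraMap (RatFunc C) (F1 C)) D.φ),
      monic_X_pow_sub_C _ hp, ?_⟩
    rw [eval₂_sub, eval₂_X_pow, eval₂_C, hT]
    exact sub_self _
  refine ⟨hint, ?_⟩
  have h1 := IntermediateField.adjoin_simple_toSubalgebra_of_isAlgebraic (F := F1 C)
    hint.isAlgebraic
  rw [← h1, hE]; rfl

/-- all embeddings are conjugate over `F0`. -/
lemma exists_conj_emb (hp : p.Prime) (hl : l.Prime) (hlp : l ≠ p)
    (hT : T ^ p = pp (i1 E) D.φ) (hE : IntermediateField.adjoin (F1 C) {T} = ⊤)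
    (τ : E →ₐ[F1 C] E0 C) {T' : E0 C}
    (hT' : T' ^ p = pp (algebraMap (RatFunc C) (E0 C)) D.φ) :
    ∃ σ : E0 C ≃ₐ[F0 C] E0 C, σ (τ T) = T' ∧
      ∀ τ' : E →ₐ[F1 C] E0 C, τ' T = T' → ∀ z, τ' z = σ (τ z) := by
  obtain ⟨σ, hσ⟩ := exists_conj hp hl hlp D (T := τ T) (T' := T')
    (by rw [← map_pow, hT, tau_pp]) hT'
  refine ⟨σ, hσ, fun τ' hτ' z => ?_⟩
  have h1 : τ' = ((σ.restrictScalars (F1 C)) : E0 C →ₐ[F1 C] E0 C).comp τ := by
    refine AlgHom.ext_of_adjoin_eq_top (adjoin_top D hp.ne_zero hT hE).2 ?_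
    intro x hx
    rw [Set.mem_singleton_iff.1 hx]
    change τ' T = σ (τ T)
    rw [hτ', hσ]
  rw [h1]; rfl

end main

theorem not_pow_F1 [CharZero C] {p l : ℕ} (hp : p.Prime) (hpC : ‖(p : C)‖ < 1) (hl : l.Prime)
    (hlp : l ≠ p) (D : Loc C p l) {E : Type*} [Field E] [Algebra (F1 C) E] {T : E}
    (hT : T ^ p = pp (i1 E) D.φ) (hE : IntermediateField.adjoin (F1 C) {T} = ⊤) (G : E) :
    G ^ l * (T - cc (i1 E) D.ζ * pp (i1 E) D.α) ≠ T - pp (i1 E) D.α := by
  intro heq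
  obtain ⟨hint, htop⟩ := adjoin_top D hp.ne_zero hT hE
  have hch : CharZero (F1 C) :=
    charZero_of_injective_algebraMap (algebraMap C (F1 C)).injective
  have hfin : FiniteDimensional (F1 C) E := by
    have h1 := IntermediateField.adjoin.finiteDimensional hint
    rw [hE] at h1
    exact Module.Finite.equiv (IntermediateField.topEquiv (F := F1 C) (E := E)).toLinearEquiv
  have hbase := fun P : C[X] => norm_E0_pp (C := C) P
  set j := algebraMap (RatFunc C) (E0 C) with hj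
  -- constants
  obtain ⟨ω, hω⟩ : ∃ ω : C, IsPrimitiveRoot ω l := by
    have : NeZero (l : C) := ⟨by exact_mod_cast hl.ne_zero⟩
    exact HasEnoughRootsOfUnity.exists_primitiveRoot C l
  have hωE : IsPrimitiveRoot (cc j ω) l :=
    hω.map_of_injective (f := j.comp RatFunc.C) (j.comp RatFunc.C).injective
  have hζ1 : ‖D.ζ - 1‖ < 1 := norm_zeta_lt hp hpC D.hζ
  have hζne : D.ζ - 1 ≠ 0 := sub_ne_zero.2 (D.hζ.ne_one hp.one_lt)
  have hζpos : 0 < ‖D.ζ - 1‖ := norm_pos_iff.2 hζne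
  have hζE : ‖cc j D.ζ - 1‖ = ‖D.ζ - 1‖ := norm_ζ_sub hbase D
  have hζE1 : ‖cc j D.ζ‖ ≤ 1 := (norm_root_of_unity hp.ne_zero (prim D).pow_eq_one).le
  have hlC : ‖(l : C)‖ = 1 :=
    norm_nat_eq_one hpC ((Nat.coprime_primes hl hp).2 hlp)
  have hlE : ‖(l : E0 C)‖ = 1 := by rw [← cc_natCast j, norm_cc hbase, hlC]
  have hα := norm_α_sub hbase D
  -- every embedding
  have hTτ : ∀ τ : E →ₐ[F1 C] E0 C, (τ T) ^ p = pp j D.φ := fun τ => by
    rw [← map_pow, hT, tau_pp]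
  have hTn : ∀ τ : E →ₐ[F1 C] E0 C, ‖τ T‖ ≤ 1 := fun τ =>
    (norm_T hbase D hp.ne_zero (hTτ τ)).le
  have heqτ : ∀ (τ : E →ₐ[F1 C] E0 C) (G' : E), G' ^ l = G ^ l →
      (τ G') ^ l * (1 + 0 * 0) * (τ T - cc j D.ζ * pp j D.α) =
        (τ T - pp j D.α) * (1 + 0 * 0) := fun τ G' hG' => by
    have h1 := congrArg τ heq
    rw [map_mul, map_sub, map_sub, map_mul, tau_pp, tau_cc, ← hG', map_pow] at h1
    rw [mul_zero, add_zero, mul_one, mul_one]
    exact h1
  have hnear : ∀ τ : E →ₐ[F1 C] E0 C, ‖(τ G) ^ l - 1‖ < 1 := fun τ => by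
    refine pow_near (η := 0) (δ := 0) (δ' := 0) (hTn τ) hα hζE1 (by rw [hζE]; exact hζ1) ?_
      (by rw [norm_zero, hζE]; exact hζpos) (by rw [norm_zero]; exact zero_le_one)
      (by rw [norm_zero]; exact zero_le_one) (heqτ τ G rfl)
    have := big_T hbase D hp.ne_zero (hTτ τ) 1
    rw [pow_one] at this
    rw [hζE]; exact this
  -- fix one embedding
  have τ0 : E →ₐ[F1 C] E0 C := by
    have htf : Module.IsTorsionFree (F1 C) (E0 C) :=
      Module.isTorsionFree_iff_algebraMap_injective.2 (algebraMap (F1 C) (E0 C)).injective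
    exact IsAlgClosed.lift
  obtain ⟨k, hk⟩ := exists_near_root hl.ne_zero hωE (hnear τ0)
  have hallk : ∀ τ : E →ₐ[F1 C] E0 C, ‖τ G - cc j ω ^ k‖ < 1 := by
    intro τ
    obtain ⟨σ, hσ, hσ'⟩ := exists_conj_emb D hp hl hlp hT hE τ0 (hTτ τ)
    have h1 : τ G - cc j ω ^ k = σ (τ0 G - cc j ω ^ k) := by
      rw [map_sub, ← hσ' τ rfl, map_pow]
      congr 2
      rw [cc, hj, IsScalarTower.algebraMap_apply (RatFunc C) (F0 C) (E0 C)]
      exact (σ.commutes _).symm
    rw [h1, norm_E0_equiv]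
    exact hk
  -- normalise
  have hω0 : ω ≠ 0 := by
    rintro rfl
    have := hω.pow_eq_one
    rw [zero_pow hl.ne_zero] at this
    exact zero_ne_one this
  set G1 : E := G * cc (i1 E) (ω ^ k)⁻¹ with hG1
  have hG1l : G1 ^ l = G ^ l := by
    rw [hG1, mul_pow, ← cc_pow, inv_pow, ← pow_mul, mul_comm k l, pow_mul, hω.pow_eq_one, one_pow,
      inv_one, cc_one, mul_one]
  have hcck : cc j (ω ^ k)⁻¹ * cc j ω ^ k = 1 := by
    rw [← cc_pow, ← cc_mul, inv_mul_cancel₀ (pow_ne_zero _ hω0), cc_one]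
  have hωn : ‖cc j (ω ^ k)⁻¹‖ = 1 := by
    rw [norm_cc hbase, norm_inv, norm_pow, norm_root_of_unity hl.ne_zero hω.pow_eq_one, one_pow,
      inv_one]
  have hG1n : ∀ τ : E →ₐ[F1 C] E0 C, ‖τ G1 - 1‖ < 1 := by
    intro τ
    have h1 : τ G1 - 1 = (τ G - cc j ω ^ k) * cc j (ω ^ k)⁻¹ := by
      rw [hG1, map_mul, tau_cc, sub_mul, mul_comm (cc j ω ^ k), hcck]
    rw [h1, norm_mul, hωn, mul_one]
    exact hallk τ
  -- the function v
  set v : E := (G1 - 1) * (T - cc (i1 E) D.ζ * pp (i1 E) D.α) with hv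
  set κ : C := l / (D.ζ - 1) with hκ
  have hκ0 : κ ≠ 0 := div_ne_zero (by exact_mod_cast hl.ne_zero) hζne
  have hvn : ∀ τ : E →ₐ[F1 C] E0 C, ‖τ (cc (i1 E) κ * v) - 1‖ < 1 := by
    intro τ
    have h1 := est_main (η := 0) (δ := 0) (δ' := 0) hlE (hTn τ) hα hζE1
      (by rw [hζE]; exact hζ1) (by rw [norm_zero, hζE]; exact hζpos)
      (by rw [norm_zero]; exact zero_le_one) (by rw [norm_zero]; exact zero_le_one) (hG1n τ)
      (heqτ τ G1 hG1l)
    have h2 : τ v = (τ G1 - 1) * (τ T - cc j D.ζ * pp j D.α) := by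
      rw [hv, map_mul τ (G1 - 1), map_sub τ G1, map_sub τ T, map_mul τ (cc (i1 E) D.ζ), tau_pp,
        tau_cc, map_one]
    have h3 : cc j κ = (l : E0 C) / (cc j D.ζ - 1) := by
      rw [hκ, cc, map_div₀, map_div₀, map_natCast, map_natCast, map_sub, map_sub, map_one, map_one]
      rfl
    have h4 : cc j D.ζ - 1 ≠ 0 := by
      rw [← norm_pos_iff, hζE]; exact hζpos
    have h5 : τ (cc (i1 E) κ * v) - 1 =
        (l * ((τ G1 - 1) * (τ T - cc j D.ζ * pp j D.α)) - (cc j D.ζ - 1)) / (cc j D.ζ - 1) := by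
      rw [map_mul, tau_cc, h3, h2]
      field_simp
    rw [h5, norm_div, div_lt_one (norm_pos_iff.2 h4)]
    exact h1
  -- norm
  set n : F1 C := Algebra.norm (F1 C) (cc (i1 E) κ * v) with hn
  have hnE : algebraMap (F1 C) (E0 C) n = ∏ τ : E →ₐ[F1 C] E0 C, τ (cc (i1 E) κ * v) :=
    Algebra.norm_eq_prod_embeddings (F1 C) (E0 C) _
  have hn1 : ‖(n : F0 C) - 1‖ < 1 := by
    have h1 : ‖algebraMap (F1 C) (E0 C) n - 1‖ < 1 := by
      rw [hnE]; exact near_prod _ fun τ _ => hvn τ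
    have h2 : algebraMap (F1 C) (E0 C) n - 1 = algebraMap (F0 C) (E0 C) ((n : F0 C) - 1) := by
      rw [map_sub, map_one]; rfl
    rwa [h2, norm_E0_algebraMap] at h1
  -- integrality over A1
  let alg1 : Algebra (A1 C) (F1 C) := (iA1 (C := C)).toAlgebra
  let alg2 : Algebra (A1 C) E := ((algebraMap (F1 C) E).comp (iA1 (C := C))).toAlgebra
  have tow : IsScalarTower (A1 C) (F1 C) E := IsScalarTower.of_algebraMap_eq fun _ => rfl
  have hintpp : ∀ P : C[X], IsIntegral (A1 C) (pp (i1 E) P) := by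
    intro P
    have : pp (i1 E) P = algebraMap (A1 C) E ⟨aeval (tt C) P, aeval_mem_A1 P⟩ := by
      change algebraMap (F1 C) E _ = algebraMap (F1 C) E _
      congr 1
      exact Subtype.ext (P025H373.algebraMap_poly P)
    rw [this]
    exact isIntegral_algebraMap
  have hintcc : ∀ c : C, IsIntegral (A1 C) (cc (i1 E) c) := fun c => by
    rw [← pp_C]; exact hintpp _
  have hTint : IsIntegral (A1 C) T := by
    apply IsIntegral.of_pow (Nat.pos_of_ne_zero hp.ne_zero)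
    rw [hT]; exact hintpp _
  have hdint : IsIntegral (A1 C) (T - cc (i1 E) D.ζ * pp (i1 E) D.α) :=
    hTint.sub ((hintcc _).mul (hintpp _))
  have hw0l : (G1 * (T - cc (i1 E) D.ζ * pp (i1 E) D.α)) ^ l =
      (T - pp (i1 E) D.α) * (T - cc (i1 E) D.ζ * pp (i1 E) D.α) ^ (l - 1) := by
    obtain ⟨l', rfl⟩ : ∃ l', l = l' + 1 := ⟨l - 1, by have := hl.one_lt; omega⟩
    rw [mul_pow, hG1l, Nat.add_sub_cancel, pow_succ' (T - cc (i1 E) D.ζ * pp (i1 E) D.α),
      ← mul_assoc, heq]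
  have hw0 : IsIntegral (A1 C) (G1 * (T - cc (i1 E) D.ζ * pp (i1 E) D.α)) := by
    apply IsIntegral.of_pow hl.pos
    rw [hw0l]
    exact (hTint.sub (hintpp _)).mul (hdint.pow _)
  have hvw : v = G1 * (T - cc (i1 E) D.ζ * pp (i1 E) D.α) -
      (T - cc (i1 E) D.ζ * pp (i1 E) D.α) := by rw [hv]; ring
  have hvint : IsIntegral (A1 C) v := by rw [hvw]; exact hw0.sub hdint
  have hnint : IsIntegral (A1 C) n := Algebra.isIntegral_norm (F1 C) ((hintcc κ).mul hvint)
  have hnA1 : (n : F0 C) ∈ A1 C := by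
    apply mem_A1_of_integral n.2
    obtain ⟨P, hP, h⟩ := hnint
    refine ⟨P, hP, ?_⟩
    have h2 := congrArg (algebraMap (F1 C) (F0 C)) h
    rw [map_zero, Polynomial.hom_eval₂] at h2
    exact h2
  have hninv : (n : F0 C)⁻¹ ∈ A1 C := by
    have h1 := (exists_inv_A1 (C := C) (h := (n : F0 C) - 1)
      ((A1 C).sub_mem hnA1 (A1 C).one_mem) hn1).1
    rwa [add_sub_cancel] at h1
  -- the valuation ring
  obtain ⟨B, hB, htB⟩ := exists_vs (C := C)
  have hn0 : (n : F0 C) ≠ 0 := by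
    intro h0
    rw [h0, zero_sub, norm_neg, norm_one] at hn1
    exact lt_irrefl _ hn1
  have hBint : ∀ (τ : E →ₐ[F1 C] E0 C) (z : E), IsIntegral (A1 C) z → τ z ∈ B := by
    intro τ z hz
    obtain ⟨P, hP, h⟩ := hz
    let i2 : A1 C →+* B := ((algebraMap (F0 C) (E0 C)).comp (algebraMap (A1 C) (F0 C))).codRestrict
      B.toSubring fun x => hB _ x.2
    have h1 : IsIntegral B (τ z) := by
      refine ⟨P.map i2, hP.map i2, ?_⟩
      rw [Polynomial.eval₂_map]
      have h2 := congrArg (τ : E →+* E0 C) h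
      rw [map_zero, Polynomial.hom_eval₂] at h2
      have h3 : (τ : E →+* E0 C).comp (algebraMap (A1 C) E) = (algebraMap B (E0 C)).comp i2 := by
        ext x
        exact τ.commutes (iA1 x)
      rw [h3] at h2
      exact h2
    obtain ⟨y, hy⟩ := IsIntegrallyClosed.algebraMap_eq_of_integral h1
    rw [← hy]
    exact y.2
  have hccB : ∀ c : C, cc j c ∈ B := fun c => by
    have := hB _ ((A1 C).algebraMap_mem c)
    exact this
  -- choose the root
  have hprod := prod_eq hp.ne_zero (T := τ0 T) (α := pp j D.α) (prim (i := j) D)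
  have hprodB : ∏ i ∈ Finset.range p, (τ0 T - cc j D.ζ ^ i * pp j D.α) ∈ B.nonunits := by
    have h1 := eq_u hbase D (τ0 T) (hTτ τ0)
    rw [hprod, h1, add_sub_cancel_left, pp_mul, pp_pow, pp_X]
    have h2 : j RatFunc.X ∈ B.nonunits := htB
    have h3 : pp j D.u ∈ B := by
      have := hB _ (aeval_mem_A1 D.u)
      rw [← algebraMap_poly] at this
      exact this
    rw [ValuationSubring.mem_nonunits_iff] at h2 ⊢
    rw [map_mul, map_pow]
    have h4 := (B.valuation_le_one_iff _).2 h3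
    calc B.valuation (j RatFunc.X) ^ l * B.valuation (pp j D.u)
        ≤ B.valuation (j RatFunc.X) ^ l * 1 := by gcongr
      _ = B.valuation (j RatFunc.X) ^ l := mul_one _
      _ < 1 := pow_lt_one₀ zero_le h2 hl.ne_zero
  obtain ⟨i0, hi0⟩ : ∃ i0 < p, τ0 T - cc j D.ζ ^ i0 * pp j D.α ∈ B.nonunits := by
    by_contra hno
    push Not at hno
    rw [ValuationSubring.mem_nonunits_iff, map_prod] at hprodB
    refine absurd hprodB (not_lt.2 ?_)
    calc (1 : B.ValueGroup) = ∏ i ∈ Finset.range p, (1 : B.ValueGroup) := by simp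
      _ ≤ _ := Finset.prod_le_prod' (fun i hi => by
        have := hno i (Finset.mem_range.1 hi)
        rw [ValuationSubring.mem_nonunits_iff, not_lt] at this
        exact this)
  -- T' = ζ^(1-i0) τ0 T
  have hζE0 : cc j D.ζ ≠ 0 := by
    rw [← norm_pos_iff, norm_root_of_unity hp.ne_zero (prim D).pow_eq_one]; exact one_pos
  set T' : E0 C := cc j D.ζ ^ (p + 1 - i0) * τ0 T with hT'
  have hT'p : T' ^ p = pp j D.φ := by
    rw [hT', mul_pow, ← pow_mul, mul_comm _ p, pow_mul, (prim D).pow_eq_one, one_pow, one_mul,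
      hTτ]
  have hT'B : T' - cc j D.ζ * pp j D.α ∈ B.nonunits := by
    have h1 : T' - cc j D.ζ * pp j D.α =
        cc j (D.ζ ^ (p + 1 - i0)) * (τ0 T - cc j D.ζ ^ i0 * pp j D.α) := by
      have h2 : cc j D.ζ ^ (p + 1 - i0) * cc j D.ζ ^ i0 = cc j D.ζ := by
        rw [← pow_add, show p + 1 - i0 + i0 = p + 1 by omega, pow_succ, (prim D).pow_eq_one,
          one_mul]
      rw [cc_pow, mul_sub, ← mul_assoc, h2]
    have h3 := hi0.2
    rw [ValuationSubring.mem_nonunits_iff] at h3 ⊢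
    rw [h1, map_mul]
    have h4 := (B.valuation_le_one_iff _).2 (hccB (D.ζ ^ (p + 1 - i0)))
    exact (mul_le_of_le_one_left' h4).trans_lt h3
  obtain ⟨σ, hσ, -⟩ := exists_conj_emb D hp hl hlp hT hE τ0 hT'p
  let τ1 : E →ₐ[F1 C] E0 C := ((σ.restrictScalars (F1 C)) : E0 C →ₐ[F1 C] E0 C).comp τ0
  have hτ1 : τ1 T = T' := hσ
  have hdB : τ1 (T - cc (i1 E) D.ζ * pp (i1 E) D.α) ∈ B.nonunits := by
    rw [map_sub, map_mul, tau_cc, tau_pp, hτ1]
    exact hT'B
  have hw0B : τ1 (G1 * (T - cc (i1 E) D.ζ * pp (i1 E) D.α)) ∈ B.nonunits := by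
    have h1 := congrArg (fun z => B.valuation (τ1 z)) hw0l
    simp only [map_pow, map_mul τ1 (T - pp (i1 E) D.α), map_mul B.valuation (τ1 (T - pp (i1 E) D.α))] at h1
    have h2 := (B.valuation_le_one_iff _).2 (hBint τ1 _ (hTint.sub (hintpp D.α)))
    rw [ValuationSubring.mem_nonunits_iff] at hdB ⊢
    by_contra hge
    push Not at hge
    have h3 := one_le_pow₀ hge (n := l)
    rw [h1] at h3
    refine absurd h3 (not_le.2 ?_)
    calc _ ≤ 1 * B.valuation (τ1 (T - cc (i1 E) D.ζ * pp (i1 E) D.α)) ^ (l - 1) := by gcongr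
      _ = _ := one_mul _
      _ < 1 := pow_lt_one₀ zero_le hdB (by have := hl.one_lt; omega)
  have hvB : B.valuation (τ1 v) < 1 := by
    rw [hvw, map_sub]
    exact (B.valuation.map_sub _ _).trans_lt (max_lt hw0B hdB)
  have hnB : B.valuation (algebraMap (F1 C) (E0 C) n) < 1 := by
    classical
    rw [hnE, map_prod, ← Finset.mul_prod_erase _ _ (Finset.mem_univ τ1)]
    have h1 : B.valuation (τ1 (cc (i1 E) κ * v)) < 1 := by
      rw [map_mul, map_mul]
      have h2 := (B.valuation_le_one_iff _).2 (hBint τ1 _ (hintcc κ))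
      exact (mul_le_of_le_one_left' h2).trans_lt hvB
    have h3 : ∏ τ ∈ Finset.univ.erase τ1, B.valuation (τ (cc (i1 E) κ * v)) ≤ 1 :=
      Finset.prod_le_one' fun τ _ =>
        (B.valuation_le_one_iff _).2 (hBint τ _ ((hintcc κ).mul hvint))
    exact (mul_le_of_le_one_right' h3).trans_lt h1
  have h1 := (B.valuation_le_one_iff _).2 (hB _ hninv)
  have h2 : algebraMap (F1 C) (E0 C) n = algebraMap (F0 C) (E0 C) (n : F0 C) := rfl
  rw [h2] at hnB
  rw [map_inv₀, map_inv₀] at h1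
  have h3 : B.valuation (algebraMap (F0 C) (E0 C) (n : F0 C)) ≠ 0 := by
    rw [Valuation.ne_zero_iff]
    exact (_root_.map_ne_zero _).2 hn0
  have h4 := mul_inv_cancel₀ h3
  have h5 : B.valuation (algebraMap (F0 C) (E0 C) (n : F0 C)) *
      (B.valuation (algebraMap (F0 C) (E0 C) (n : F0 C)))⁻¹ < 1 :=
    (mul_le_of_le_one_right' h1).trans_lt hnB
  rw [h4] at h5
  exact lt_irrefl _ h5

end P025H507
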