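import Vale.Agent.P025.R2.H507.Norms

/-! # P025, G-LA-b: the polynomial `Φ = (1-κ)(1+x) + κ (1+x)^(h+1)` -/

open Polynomial

namespace P025H507

section alg

variable {K : Type*} [Field K]

/-- `Φ = (1-κ)(1+x) + κ (1+x)^(h+1)` -/
noncomputable def Phi (κ : K) (h : ℕ) : K[X] := C (1 - κ) * (X + 1) + C κ * (X + 1) ^ (h + 1)

lemma Phi_coeff_zero (κ : K) (h : ℕ) : (Phi κ h).coeff 0 = 1 := by
  simp [Phi, coeff_X_add_one_pow]

lemma Phi_coeff_one (κ : K) (h : ℕ) : (Phi κ h).coeff 1 = 1 + κ * h := by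
  simp only [Phi, coeff_add, coeff_C_mul, coeff_X_add_one_pow, coeff_X_one, coeff_one,
    Nat.choose_one_right]
  push_cast
  simp
  ring

lemma Phi_coeff (κ : K) (h : ℕ) {i : ℕ} (hi : 2 ≤ i) :
    (Phi κ h).coeff i = κ * ((h + 1).choose i : K) := by
  simp only [Phi, coeff_add, coeff_C_mul, coeff_X_add_one_pow, coeff_X, coeff_one]
  rw [if_neg (by omega), if_neg (by omega)]
  ring

lemma choose_mul_eq {h i : ℕ} (hh : h ≠ 0) (hi : 2 ≤ i) :
    (h + 1).choose i * (i * (i - 1)) = (h + 1) * h * (h - 1).choose (i - 2) := by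
  obtain ⟨a, rfl⟩ := Nat.exists_eq_succ_of_ne_zero hh
  obtain ⟨j, rfl⟩ : ∃ j, i = j + 2 := ⟨i - 2, by omega⟩
  have h1 := Nat.add_one_mul_choose_eq (a + 1) (j + 1)
  have h2 := Nat.add_one_mul_choose_eq a j
  simp only [Nat.succ_eq_add_one] at *
  rw [show a + 1 + 1 = a + 2 by ring, show j + 1 + 1 = j + 2 by ring] at h1
  rw [show a + 1 + 1 = a + 2 by ring, show a + 1 - 1 = a by omega, show j + 2 - 2 = j by omega,
    show j + 2 - 1 = j + 1 by omega]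
  calc (a + 2).choose (j + 2) * ((j + 2) * (j + 1))
      = ((a + 2).choose (j + 2) * (j + 2)) * (j + 1) := by ring
    _ = ((a + 2) * (a + 1).choose (j + 1)) * (j + 1) := by rw [← h1]
    _ = (a + 2) * ((a + 1).choose (j + 1) * (j + 1)) := by ring
    _ = (a + 2) * ((a + 1) * a.choose j) := by rw [← h2]
    _ = _ := by ring

lemma Phi_coeff_mul (κ : K) {h i : ℕ} (hh : h ≠ 0) (hi : 2 ≤ i) :
    (Phi κ h).coeff i * ((i * (i - 1) : ℕ) : K) =
      (κ * h) * ((h + 1 : ℕ) : K) * ((h - 1).choose (i - 2) : K) := by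
  rw [Phi_coeff κ h hi, mul_assoc, ← Nat.cast_mul, choose_mul_eq hh hi]
  push_cast
  ring

/-- coefficients of `κ ((1+x)^h - 1)` -/
lemma kchoose_mul (κ : K) {h i : ℕ} (hh : h ≠ 0) (hi : 1 ≤ i) :
    κ * (h.choose i : K) * (i : K) = (κ * h) * ((h - 1).choose (i - 1) : K) := by
  obtain ⟨a, rfl⟩ := Nat.exists_eq_succ_of_ne_zero hh
  obtain ⟨j, rfl⟩ : ∃ j, i = j + 1 := ⟨i - 1, by omega⟩
  have h2 := Nat.add_one_mul_choose_eq a j
  simp only [Nat.succ_eq_add_one] at *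
  rw [show a + 1 - 1 = a by omega, show j + 1 - 1 = j by omega, mul_assoc, ← Nat.cast_mul, ← h2]
  push_cast
  ring

/-- coefficients of `(1 + a x)^n` -/
lemma one_add_pow_coeff (a : K) (n i : ℕ) :
    ((1 + C a * X) ^ n).coeff i = (n.choose i : K) * a ^ i := by
  have h1 : (1 + C a * X : K[X]) ^ n = ((X + 1) ^ n).comp (C a * X) := by
    simp [add_comm]
  rw [h1, comp_C_mul_X_coeff, coeff_X_add_one_pow]

end alg

section norm

variable {K : Type*} [NormedField K] [IsUltrametricDist K]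

lemma norm_Phi_coeff_mul_le (κ : K) {h i : ℕ} (hh : h ≠ 0) (hi : 2 ≤ i) :
    ‖(Phi κ h).coeff i‖ * ‖((i * (i - 1) : ℕ) : K)‖ ≤ ‖κ * h‖ := by
  rw [← norm_mul, Phi_coeff_mul κ hh hi, norm_mul, norm_mul]
  calc _ ≤ ‖κ * h‖ * 1 * 1 := by
        gcongr
        · exact norm_nat_le_one _
        · exact norm_nat_le_one _
    _ = _ := by ring

lemma norm_kchoose_mul_le (κ : K) {h i : ℕ} (hh : h ≠ 0) (hi : 1 ≤ i) :
    ‖κ * (h.choose i : K)‖ * ‖(i : K)‖ ≤ ‖κ * h‖ := by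
  rw [← norm_mul, kchoose_mul κ hh hi, norm_mul]
  exact mul_le_of_le_one_right (norm_nonneg _) (norm_nat_le_one _)

/-- radius estimate -/
lemma pow_lt_of_val {p : ℕ} {r : ℝ} {P : ℝ} (hr0 : 0 ≤ r) (hr1 : r < 1)
    (hrp : r ^ (p - 1) < P) {k n : ℕ} (hn : n ≠ 0) (hk : (p - 1) * k ≤ n) : r ^ n < P ^ k := by
  rcases Nat.eq_zero_or_pos k with hk0 | hk0
  · subst hk0
    rw [pow_zero]
    exact pow_lt_one₀ hr0 hr1 hn
  · calc r ^ n ≤ r ^ ((p - 1) * k) := pow_le_pow_of_le_one hr0 hr1.le hk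
      _ = (r ^ (p - 1)) ^ k := by rw [pow_mul]
      _ < P ^ k := pow_lt_pow_left₀ hrp (pow_nonneg hr0 _) (by omega)

/-- `r^n < ‖n‖` -/
lemma pow_lt_norm_nat {p : ℕ} [Fact p.Prime] (hp : ‖(p : K)‖ < 1) {r : ℝ} (hr0 : 0 ≤ r)
    (hr1 : r < 1) (hrp : r ^ (p - 1) < ‖(p : K)‖) {n : ℕ} (hn : n ≠ 0) :
    r ^ n < ‖(n : K)‖ := by
  rw [norm_nat_eq hp hn]
  have := val_bound (p := p) hn
  exact pow_lt_of_val hr0 hr1 hrp hn (by omega)

/-- `r^(n-2) < ‖n (n-1)‖` for `n > p`, `p` odd -/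
lemma pow_lt_norm_nat_two {p : ℕ} [Fact p.Prime] (hp : ‖(p : K)‖ < 1) (hp2 : p ≠ 2) {r : ℝ}
    (hr0 : 0 ≤ r) (hr1 : r < 1) (hrp : r ^ (p - 1) < ‖(p : K)‖) {n : ℕ} (hn : p < n) :
    r ^ (n - 2) < ‖((n * (n - 1) : ℕ) : K)‖ := by
  have hp1 := (Fact.out : p.Prime).two_le
  have h1 : n * (n - 1) ≠ 0 := Nat.mul_ne_zero (by omega) (by omega)
  rw [norm_nat_eq hp h1, padicValNat.mul (by omega) (by omega)]
  refine pow_lt_of_val hr0 hr1 hrp (by omega) ?_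
  by_cases hd : p ∣ n
  · have hd' : ¬ p ∣ n - 1 := by
      intro h
      have h2 : p ∣ n - (n - 1) := Nat.dvd_sub hd h
      rw [show n - (n - 1) = 1 by omega] at h2
      exact (Fact.out : p.Prime).one_lt.ne' (Nat.dvd_one.1 h2)
    rw [padicValNat.eq_zero_of_not_dvd hd', add_zero]
    rcases val_bound_two (p := p) (n := n) (by omega) (by omega) hp2 with h | h
    · omega
    · rw [h]; omega
  · rw [padicValNat.eq_zero_of_not_dvd hd, zero_add]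
    have := val_bound (p := p) (n := n - 1) (by omega)
    omega

/-- `‖1 - ζ^i‖ = ‖1 - ζ‖` -/
lemma norm_one_sub_pow_le {z : K} (hz : ‖z‖ ≤ 1) (i : ℕ) : ‖1 - z ^ i‖ ≤ ‖1 - z‖ := by
  have h1 : 1 - z ^ i = (1 - z) * ∑ j ∈ Finset.range i, z ^ j := by
    rw [mul_comm, ← neg_sub z 1, ← neg_sub (z ^ i) 1, ← geom_sum_mul]; ring
  rw [h1, norm_mul]
  refine mul_le_of_le_one_right (norm_nonneg _) ?_
  refine IsUltrametricDist.norm_sum_le_of_forall_le_of_nonneg zero_le_one (fun j _ => ?_)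
  rw [norm_pow]
  exact pow_le_one₀ (norm_nonneg _) hz

omit [IsUltrametricDist K] in
lemma norm_root_of_unity {z : K} {n : ℕ} (hn : n ≠ 0) (h : z ^ n = 1) : ‖z‖ = 1 := by
  have h1 : ‖z‖ ^ n = 1 := by rw [← norm_pow, h, norm_one]
  exact (pow_eq_one_iff_of_nonneg (norm_nonneg _) hn).1 h1

/-- `‖ζ - 1‖ ^ (p-1) = ‖p‖` -/
lemma norm_zeta_sub_one {p : ℕ} [hpr : Fact p.Prime] {ζ : K}
    (hζ : IsPrimitiveRoot ζ p) : ‖ζ - 1‖ ^ (p - 1) = ‖(p : K)‖ := by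
  have hpp : p.Prime := hpr.out
  have hz1 : ‖ζ‖ ≤ 1 := (norm_root_of_unity hpp.ne_zero hζ.pow_eq_one).le
  have h1 : ∏ i ∈ Finset.range (p - 1), (1 - ζ ^ (i + 1)) = (p : K) := by
    obtain ⟨t, ht⟩ : ∃ t, p = t + 1 := ⟨p - 1, by have := hpp.one_lt; omega⟩
    have h2 : IsPrimitiveRoot ζ (t + 1) := ht ▸ hζ
    have h3 := h2.prod_one_sub_pow_eq_order
    rw [show p - 1 = t by omega, h3, ht]
    push_cast
    ring
  rw [← h1, norm_prod]
  have h3 : ∀ i ∈ Finset.range (p - 1), ‖1 - ζ ^ (i + 1)‖ = ‖ζ - 1‖ := by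
    intro i hi
    rw [Finset.mem_range] at hi
    rw [← norm_neg (ζ - 1), neg_sub]
    apply le_antisymm (norm_one_sub_pow_le hz1 _)
    have hcop : Nat.Coprime (i + 1) p := by
      rw [Nat.coprime_comm, Nat.Prime.coprime_iff_not_dvd hpp]
      intro h
      have := Nat.le_of_dvd (by omega) h
      omega
    obtain ⟨j, hj⟩ : ∃ j, (ζ ^ (i + 1)) ^ j = ζ := by
      apply exists_pow_eq_self_of_coprime
      rw [← hζ.eq_orderOf]
      exact hcop
    have h4 := norm_one_sub_pow_le (z := ζ ^ (i + 1)) (by rw [norm_pow]; exact pow_le_one₀ (norm_nonneg _) hz1) j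
    rwa [hj] at h4
  rw [Finset.prod_congr rfl h3, Finset.prod_const, Finset.card_range]

end norm

end P025H507
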