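import Vale.Agent.P025.R2.H507.LocDef

/-!
# P025, G-LA-b (helper507): from `Core` to `Loc` by the scaling `x = ρ t`
-/

set_option linter.unusedSectionVars false

open Polynomial P025H373

universe u

namespace P025H507

variable {C : Type u} [NontriviallyNormedField C] [IsUltrametricDist C]

lemma gp_sub_lt {P Q : C[X]} {r : ℝ} (hP : gp P < r) (hQ : gp Q < r) : gp (P - Q) < r :=
  (gp_sub_le_max P Q).trans_lt (max_lt hP hQ)

lemma gp_mul_sub_one {P Q : C[X]} (hP : gp (P - 1) < 1) (hQ : gp (Q - 1) < 1) :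
    gp (P * Q - 1) < 1 := by
  have h1 : P * Q - 1 = (P - 1) * Q + (Q - 1) := by ring
  rw [h1]
  refine (gp_add_le_max _ _).trans_lt (max_lt ?_ hQ)
  rw [gp_mul, gp_eq_one_of_sub_lt hQ, mul_one]
  exact hP

lemma gp_pow_sub_one {P : C[X]} (hP : gp (P - 1) < 1) (n : ℕ) : gp (P ^ n - 1) < 1 := by
  induction n with
  | zero => simp
  | succ n ih => rw [pow_succ]; exact gp_mul_sub_one ih hP

variable {p h l : ℕ} (D : Core C p h l)

/-- `Φ(ρ t)` -/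
noncomputable def Core.φ : C[X] := (Phi D.κ h).comp (Polynomial.C D.ρ * X)

/-- `A(ρ t)` -/
noncomputable def Core.α : C[X] := D.A.comp (Polynomial.C D.ρ * X)

/-- `ρ ^ l Q(ρ t)` -/
noncomputable def Core.u : C[X] := Polynomial.C (D.ρ ^ l) * D.Q.comp (Polynomial.C D.ρ * X)

lemma Core.φ_eq : D.φ = D.α ^ p + X ^ l * D.u := by
  rw [Core.φ, D.hPhi, Core.α, Core.u, add_comp, pow_comp, mul_comp, pow_comp, X_comp, mul_pow,
    Polynomial.C_pow]
  ring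

lemma Core.norm_c : ‖D.ρ ^ l * D.Q.coeff 0‖ = ‖D.Q.coeff 0‖ * ‖D.ρ‖ ^ l := by
  rw [norm_mul, norm_pow, mul_comm]

lemma Core.gp_α : gp (D.α - 1) < 1 := by
  rw [gp_lt_iff]
  intro i
  rw [coeff_sub, Core.α, comp_C_mul_X_coeff, coeff_one]
  rcases Nat.eq_zero_or_pos i with rfl | hi
  · rw [if_pos rfl, D.hA0, pow_zero, mul_one, sub_self, norm_zero]; exact one_pos
  · rw [if_neg (by omega), sub_zero, norm_mul, norm_pow]
    exact D.hA i hi

lemma Core.gp_φ : gp (D.φ - 1) < 1 := by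
  rw [gp_lt_iff]
  intro i
  rw [coeff_sub, Core.φ, comp_C_mul_X_coeff, coeff_one]
  match i with
  | 0 => rw [if_pos rfl, Phi_coeff_zero, pow_zero, mul_one, sub_self, norm_zero]; exact one_pos
  | 1 =>
    rw [if_neg (by omega), sub_zero, Phi_coeff_one, pow_one, norm_mul]
    have h1 : ‖1 + D.κ * h‖ ≤ 1 :=
      (IsUltrametricDist.norm_add_le_max _ _).trans (max_le norm_one.le D.hκ.le)
    calc ‖1 + D.κ * h‖ * ‖D.ρ‖ ≤ 1 * ‖D.ρ‖ := by gcongr
      _ < 1 := by rw [one_mul]; exact D.hρ1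
  | (j + 2) =>
    rw [if_neg (by omega), sub_zero, Phi_coeff _ _ (by omega)]
    have h1 : D.κ * ((h + 1).choose (j + 2) : C) * D.ρ ^ (j + 2) =
        D.κ * (h.choose (j + 1) : C) * D.ρ ^ (j + 1) * D.ρ +
          D.κ * (h.choose (j + 2) : C) * D.ρ ^ (j + 2) := by
      rw [Nat.choose_succ_succ]
      push_cast
      ring
    rw [h1]
    refine (IsUltrametricDist.norm_add_le_max _ _).trans_lt (max_lt ?_ ?_)
    · rw [norm_mul, norm_mul, norm_pow]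
      exact mul_lt_one_of_nonneg_of_lt_one_left (by positivity) (D.hch (j + 1) (by omega))
        D.hρ1.le
    · rw [norm_mul, norm_pow]
      exact D.hch (j + 2) (by omega)

lemma Core.gp_u_sub : gp (D.u - Polynomial.C (D.ρ ^ l * D.Q.coeff 0)) < ‖D.ρ ^ l * D.Q.coeff 0‖ := by
  have hc : 0 < ‖D.ρ ^ l * D.Q.coeff 0‖ :=
    norm_pos_iff.2 (mul_ne_zero (pow_ne_zero _ D.hρ0) D.hQ0)
  rw [gp_lt_iff]
  intro i
  rw [coeff_sub, Core.u, coeff_C_mul, comp_C_mul_X_coeff, coeff_C]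
  rcases Nat.eq_zero_or_pos i with rfl | hi
  · rw [if_pos rfl, pow_zero, mul_one, sub_self, norm_zero]; exact hc
  · rw [if_neg (by omega), sub_zero, norm_mul, norm_mul, norm_mul, norm_pow D.ρ i]
    have h1 : 0 < ‖D.ρ ^ l‖ := norm_pos_iff.2 (pow_ne_zero _ D.hρ0)
    exact mul_lt_mul_of_pos_left (D.hQ i hi) h1

/-- the scaled data. -/
noncomputable def Core.toLoc : Loc C p l where
  ζ := D.ζ
  c := D.ρ ^ l * D.Q.coeff 0
  φ := D.φ
  α := D.α
  u := D.u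
  hζ := D.hζ
  hφ := D.φ_eq
  hα := D.gp_α
  hφ1 := D.gp_φ
  hu := D.gp_u_sub
  hbig := by rw [D.norm_c]; exact D.hbig
  hlt := by
    have hc : 0 < ‖D.ρ ^ l * D.Q.coeff 0‖ :=
      norm_pos_iff.2 (mul_ne_zero (pow_ne_zero _ D.hρ0) D.hQ0)
    have h1 : gp (X ^ l * D.u) < 1 := by
      have h2 : X ^ l * D.u = (D.φ - 1) - (D.α ^ p - 1) := by rw [D.φ_eq]; ring
      rw [h2]
      exact gp_sub_lt D.gp_φ (gp_pow_sub_one D.gp_α p)
    rw [gp_mul, gp_X_pow, one_mul] at h1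
    have h3 : gp D.u = ‖D.ρ ^ l * D.Q.coeff 0‖ := by
      have h4 := D.gp_u_sub
      apply le_antisymm
      · have h5 : D.u = (D.u - Polynomial.C (D.ρ ^ l * D.Q.coeff 0)) +
            Polynomial.C (D.ρ ^ l * D.Q.coeff 0) := by ring
        rw [h5]
        refine (gp_add_le_max _ _).trans (max_le h4.le ?_)
        rw [gp_C]
      · have h5 := norm_coeff_le D.u 0
        rwa [Core.u, coeff_C_mul, comp_C_mul_X_coeff, pow_zero, mul_one] at h5
    rwa [h3] at h1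

@[simp] lemma Core.toLoc_φ : D.toLoc.φ = D.φ := rfl
@[simp] lemma Core.toLoc_α : D.toLoc.α = D.α := rfl
@[simp] lemma Core.toLoc_u : D.toLoc.u = D.u := rfl
@[simp] lemma Core.toLoc_ζ : D.toLoc.ζ = D.ζ := rfl

/-- `Y0 ^ h (1 + ρ t) ^ h - 1` has Gauss norm `≤ ‖h‖`. -/
theorem Core.gp_Q (hhC : ‖(h : C)‖ < 1) (hh : (h : C) ≠ 0) {Y0 : C}
    (hY : Y0 ^ h * (D.κ - 1) = D.κ) :
    gp (Polynomial.C (Y0 ^ h) * (1 + Polynomial.C D.ρ * X) ^ h - 1) ≤ ‖(h : C)‖ := by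
  have hκh : ‖D.κ‖ * ‖(h : C)‖ = 1 := by rw [← norm_mul]; exact D.hκ
  have hhpos : 0 < ‖(h : C)‖ := norm_pos_iff.2 hh
  have hκ1 : 1 < ‖D.κ‖ := by
    by_contra hle
    push Not at hle
    have : ‖D.κ‖ * ‖(h : C)‖ < 1 := by
      calc ‖D.κ‖ * ‖(h : C)‖ ≤ 1 * ‖(h : C)‖ := by gcongr
        _ < 1 := by rwa [one_mul]
    exact absurd hκh this.ne
  have hκ1n : ‖D.κ - 1‖ = ‖D.κ‖ := by
    have h1 : ‖D.κ‖ ≠ ‖(-1 : C)‖ := by rw [norm_neg, norm_one]; exact hκ1.ne'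
    rw [sub_eq_add_neg, IsUltrametricDist.norm_add_eq_max_of_norm_ne_norm h1, norm_neg, norm_one,
      max_eq_left hκ1.le]
  have hκ10 : D.κ - 1 ≠ 0 := by
    rw [← norm_pos_iff, hκ1n]; exact one_pos.trans hκ1
  have hYn : ‖Y0 ^ h‖ = 1 := by
    have h1 := congrArg norm hY
    rw [norm_mul, hκ1n] at h1
    exact mul_right_cancel₀ (one_pos.trans hκ1).ne' (by rw [h1, one_mul])
  rw [gp_le_iff]
  intro i
  have h1 : (1 + Polynomial.C D.ρ * X : C[X]) ^ h = ((X + 1) ^ h).comp (Polynomial.C D.ρ * X) := by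
    simp [add_comm]
  rw [coeff_sub, coeff_C_mul, h1, comp_C_mul_X_coeff, coeff_X_add_one_pow, coeff_one]
  rcases Nat.eq_zero_or_pos i with rfl | hi
  · rw [if_pos rfl, pow_zero, Nat.choose_zero_right, Nat.cast_one, mul_one, mul_one]
    have h2 : (Y0 ^ h - 1) * (D.κ - 1) = 1 := by linear_combination hY
    have h3 := congrArg norm h2
    rw [norm_mul, hκ1n, norm_one] at h3
    have h4 : ‖Y0 ^ h - 1‖ * ‖D.κ‖ = ‖(h : C)‖ * ‖D.κ‖ := by rw [h3, mul_comm, hκh]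
    exact (mul_right_cancel₀ (one_pos.trans hκ1).ne' h4).le
  · rw [if_neg (by omega), sub_zero, norm_mul, hYn, one_mul, norm_mul, norm_pow]
    have h2 := D.hch i hi
    rw [norm_mul, mul_assoc] at h2
    have h3 : ‖D.κ‖ * (‖(h.choose i : C)‖ * ‖D.ρ‖ ^ i) < ‖D.κ‖ * ‖(h : C)‖ := by rwa [hκh]
    exact (lt_of_mul_lt_mul_left h3 (norm_nonneg _)).le

end P025H507
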